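import Mathlib.Algebra.MvPolynomial.Eval
import Mathlib.Algebra.MvPolynomial.PDeriv
import Mathlib.Algebra.Polynomial.Basic
import Mathlib.Algebra.Polynomial.Eval.Coeff
import Mathlib.Algebra.CharP.Two
import Mathlib.Algebra.CharP.Lemmas
import Mathlib.Algebra.Field.ZMod
import Mathlib.RingTheory.PowerSeries.Inverse
import Mathlib.Tactic

/-!
The coaction and the transfer on polynomials in `xi_1, xi_2, ...` over `F_2`.
-/

namespace Vale.Agent.P263.H718

open Finset

noncomputable section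

/-- Polynomials in `xi_1, xi_2, …` (`X j` is `xi_{j+1}`). -/
abbrev P := MvPolynomial ℕ (ZMod 2)

/-- `xi_0 = 1`, `xi_{j+1} = X j`. -/
def xi : ℕ → P
  | 0 => 1
  | j + 1 => MvPolynomial.X j

@[simp] lemma xi_zero : xi 0 = 1 := rfl
lemma xi_succ (j : ℕ) : xi (j + 1) = MvPolynomial.X j := rfl

/-- `xi_j ↦ xi_j + t xi_{j-1}^2`. -/
def sig : P →ₐ[ZMod 2] Polynomial P :=
  MvPolynomial.aeval fun j =>
    Polynomial.C (MvPolynomial.X j) + Polynomial.X * Polynomial.C (xi j) ^ 2

lemma sig_xi_succ (j : ℕ) :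
    sig (xi (j + 1)) = Polynomial.C (xi (j + 1)) + Polynomial.X * Polynomial.C (xi j) ^ 2 := by
  simp [sig, xi_succ]

@[simp] lemma sig_xi_zero : sig (xi 0) = 1 := by simp

/-- `xi_j ↦ ∑_{i ≤ j} xi_i Z^(2^j - 2^i)`. -/
def rho : P →ₐ[ZMod 2] Polynomial P :=
  MvPolynomial.aeval fun j =>
    ∑ i ∈ range (j + 2), Polynomial.C (xi i) * Polynomial.X ^ (2 ^ (j + 1) - 2 ^ i)

lemma rho_xi (j : ℕ) :
    rho (xi j) = ∑ i ∈ range (j + 1), Polynomial.C (xi i) * Polynomial.X ^ (2 ^ j - 2 ^ i) := by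
  cases j with
  | zero => simp
  | succ j => simp [rho, xi_succ]

/-- The coefficient of `t^m` in `sig g`. -/
def Lp (m : ℕ) (g : P) : P := (sig g).coeff m

lemma Lp_add (m : ℕ) (g h : P) : Lp m (g + h) = Lp m g + Lp m h := by simp [Lp]
lemma Lp_zero (m : ℕ) : Lp m 0 = 0 := by simp [Lp]
lemma Lp_sum {ι : Type*} (m : ℕ) (S : Finset ι) (f : ι → P) :
    Lp m (∑ i ∈ S, f i) = ∑ i ∈ S, Lp m (f i) := by
  simp [Lp, Polynomial.finsetSum_coeff]
lemma Lp_mul (m : ℕ) (g h : P) :
    Lp m (g * h) = ∑ x ∈ antidiagonal m, Lp x.1 g * Lp x.2 h := by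
  simp [Lp, Polynomial.coeff_mul]
lemma Lp_one (m : ℕ) : Lp m 1 = if m = 0 then 1 else 0 := by
  simp [Lp, Polynomial.coeff_one]
lemma Lp_xi_succ (m j : ℕ) :
    Lp m (xi (j + 1)) = if m = 0 then xi (j + 1) else if m = 1 then xi j ^ 2 else 0 := by
  have h : sig (xi (j + 1)) = Polynomial.C (xi (j + 1)) + Polynomial.C (xi j ^ 2) * Polynomial.X := by
    rw [sig_xi_succ, map_pow]; ring
  rw [Lp, h, Polynomial.coeff_add, Polynomial.coeff_C, Polynomial.coeff_C_mul,
    Polynomial.coeff_X]
  rcases m with _ | _ | m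
  · simp
  · simp
  · simp

/-- `sig` is injective: the constant coefficient of `sig g` is `g`. -/
lemma Lp_zero_left (g : P) : Lp 0 g = g := by
  have h : (Polynomial.constantCoeff (R := P)).comp (sig : P →+* Polynomial P) = RingHom.id P := by
    apply MvPolynomial.ringHom_ext
    · intro r
      simp [Polynomial.constantCoeff]
    · intro j
      have := Lp_xi_succ 0 j
      simp only [Lp, xi_succ] at this
      simpa [Polynomial.constantCoeff] using this
  have := RingHom.congr_fun h g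
  simpa [Lp, Polynomial.constantCoeff] using this

lemma rho_sq (j : ℕ) : rho (xi j) ^ 2 =
    ∑ i ∈ range (j + 1), Polynomial.C (xi i ^ 2) * Polynomial.X ^ (2 ^ (j + 1) - 2 ^ (i + 1)) := by
  rw [rho_xi, sum_pow_char 2]
  refine sum_congr rfl fun i _ => ?_
  rw [mul_pow, ← pow_mul, map_pow]
  congr 2
  rw [pow_succ, pow_succ, ← Nat.sub_mul]

lemma Lp_rho_xi (a e j : ℕ) :
    Lp a ((rho (xi j)).coeff e) = (rho (Lp a (xi j))).coeff e := by
  cases j with
  | zero =>
    simp only [xi_zero, map_one, Lp_one, Polynomial.coeff_one]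
    split_ifs <;> simp_all [Lp_one, Lp_zero, Polynomial.coeff_one]
  | succ j =>
    rw [Lp_xi_succ]
    rcases a with _ | _ | a
    · simp [Lp_zero_left]
    · simp only [zero_add, one_ne_zero, if_false, if_true]
      rw [map_pow, rho_sq, rho_xi, Polynomial.finsetSum_coeff, Polynomial.finsetSum_coeff, Lp_sum, sum_range_succ']
      have h0 : Lp 1 ((Polynomial.C (xi 0) * Polynomial.X ^ (2 ^ (j + 1) - 2 ^ 0)).coeff e) = 0 := by
        rw [Polynomial.coeff_C_mul, Polynomial.coeff_X_pow]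
        split_ifs <;> simp [Lp_one, Lp_zero]
      rw [h0, add_zero]
      refine sum_congr rfl fun i _ => ?_
      rw [Polynomial.coeff_C_mul, Polynomial.coeff_X_pow, Polynomial.coeff_C_mul,
        Polynomial.coeff_X_pow]
      split_ifs <;> simp [Lp_xi_succ, Lp_zero]
    · have h1 : ¬ (a + 1 + 1 = 0) := by omega
      have h2 : ¬ (a + 1 + 1 = 1) := by omega
      rw [if_neg h1, if_neg h2, map_zero, Polynomial.coeff_zero]
      rw [rho_xi, Polynomial.finsetSum_coeff, Lp_sum]
      apply sum_eq_zero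
      intro i _
      rw [Polynomial.coeff_C_mul, Polynomial.coeff_X_pow]
      split_ifs
      · cases i with
        | zero => simp [Lp_one]
        | succ i => simp [Lp_xi_succ]
      · simp [Lp_zero]

/-- `sig` and `rho` commute. -/
lemma Lp_rho (g : P) : ∀ a e : ℕ, Lp a ((rho g).coeff e) = (rho (Lp a g)).coeff e := by
  induction g using MvPolynomial.induction_on with
  | C r =>
    intro a e
    have hr : r = 0 ∨ r = 1 := by
      fin_cases r
      · exact Or.inl rfl
      · exact Or.inr rfl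
    rcases hr with rfl | rfl
    · simp [Lp_zero]
    · have := Lp_rho_xi a e 0
      simpa using this
  | add p q hp hq =>
    intro a e
    simp [Lp_add, hp, hq]
  | mul_X p j hp =>
    intro a e
    rw [← xi_succ, Lp_mul, map_mul, Polynomial.coeff_mul, Lp_sum, map_sum,
      Polynomial.finsetSum_coeff]
    simp only [map_mul, Polynomial.coeff_mul, Lp_mul, hp, Lp_rho_xi]
    rw [sum_comm]

end

end Vale.Agent.P263.H718
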