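import Vale.Agent.P263.H718.Case1b
import Mathlib.RingTheory.MvPolynomial.WeightedHomogeneous

/-!
The grading, and the polynomial form of the theorem for monomials with an even exponent.
-/

namespace Vale.Agent.P263.H718

open Finset

noncomputable section

/-- degrees: `xi_j` has degree `2^j - 1`. -/
def wd (M : Type*) [CommRing M] (j : ℕ) : M := 2 ^ (j + 1) - 1

section grading

variable (M : Type*) [CommRing M]

lemma HP_xi (j m : ℕ) :
    MvPolynomial.IsWeightedHomogeneous (wd M) (Lp m (xi (j + 1))) (wd M j - m) := by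
  rw [Lp_xi_succ]
  split_ifs with h h'
  · subst h
    rw [xi_succ]
    simpa using MvPolynomial.isWeightedHomogeneous_X (ZMod 2) (wd M) j
  · subst h'
    cases j with
    | zero =>
      have h1 := MvPolynomial.isWeightedHomogeneous_one (ZMod 2) (wd M)
      have h2 : wd M 0 - ((1 : ℕ) : M) = 0 := by
        rw [wd]
        push_cast
        ring
      rw [h2, xi_zero, one_pow]
      exact h1
    | succ j =>
      have h1 := (MvPolynomial.isWeightedHomogeneous_X (ZMod 2) (wd M) j).pow 2
      have h2 : 2 • wd M j = wd M (j + 1) - ((1 : ℕ) : M) := by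
        rw [wd, wd, nsmul_eq_mul]
        push_cast
        ring
      rw [h2] at h1
      rw [xi_succ]
      exact h1
  · exact MvPolynomial.isWeightedHomogeneous_zero _ _ _

lemma HP_monomial (u : ℕ →₀ ℕ) (a : ZMod 2) (m : ℕ) :
    MvPolynomial.IsWeightedHomogeneous (wd M) (Lp m (MvPolynomial.monomial u a))
      (Finsupp.weight (wd M) u - m) := by



  revert m
  induction u using Finsupp.induction_linear with
  | zero =>
    intro m
    rcases C_eq a with h | h
    · rw [show (MvPolynomial.monomial 0 a : P) = MvPolynomial.C a from rfl]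
      have h' : (MvPolynomial.C a : P) = 0 := h
      rw [h', Lp_zero]
      exact MvPolynomial.isWeightedHomogeneous_zero _ _ _
    · rw [show (MvPolynomial.monomial 0 a : P) = MvPolynomial.C a from rfl]
      have h' : (MvPolynomial.C a : P) = 1 := h
      rw [h', Lp_one]
      split_ifs with hm
      · subst hm
        rw [map_zero]
        simpa using MvPolynomial.isWeightedHomogeneous_one (ZMod 2) (wd M)
      · exact MvPolynomial.isWeightedHomogeneous_zero _ _ _
  | add f g hf hg =>
    intro m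
    rcases C_eq a with h | h
    · have h' : (MvPolynomial.monomial (f + g) a : P) = 0 := by
        have : a = 0 := by simpa using h
        rw [this, map_zero]
      rw [h', Lp_zero]
      exact MvPolynomial.isWeightedHomogeneous_zero _ _ _
    · have ha : a = 1 := MvPolynomial.C_injective ℕ (ZMod 2) (h.trans (map_one MvPolynomial.C).symm)
      have h' : (MvPolynomial.monomial (f + g) a : P) =
          MvPolynomial.monomial f a * MvPolynomial.monomial g a := by
        rw [MvPolynomial.monomial_mul, ha, mul_one]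
      rw [h', Lp_mul]
      apply Submodule.sum_mem (MvPolynomial.weightedHomogeneousSubmodule (ZMod 2) (wd M)
        (Finsupp.weight (wd M) (f + g) - m))
      intro x hx
      rw [mem_antidiagonal] at hx
      have h1 := (hf x.1).mul (hg x.2)
      rw [MvPolynomial.mem_weightedHomogeneousSubmodule]
      convert h1 using 1
      rw [map_add, ← hx]
      push_cast
      ring
  | single j k =>
    intro m
    rcases C_eq a with h | h
    · have h' : (MvPolynomial.monomial (Finsupp.single j k) a : P) = 0 := by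
        have : a = 0 := by simpa using h
        rw [this, map_zero]
      rw [h', Lp_zero]
      exact MvPolynomial.isWeightedHomogeneous_zero _ _ _
    · have ha : a = 1 := MvPolynomial.C_injective ℕ (ZMod 2) (h.trans (map_one MvPolynomial.C).symm)
      rw [ha, ← MvPolynomial.X_pow_eq_monomial, ← xi_succ]
      clear h ha
      induction k generalizing m with
      | zero =>
        rw [pow_zero, Lp_one]
        split_ifs with hm
        · subst hm
          simpa using MvPolynomial.isWeightedHomogeneous_one (ZMod 2) (wd M)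
        · exact MvPolynomial.isWeightedHomogeneous_zero _ _ _
      | succ k ih =>
        rw [pow_succ, Lp_mul]
        apply Submodule.sum_mem (MvPolynomial.weightedHomogeneousSubmodule (ZMod 2) (wd M)
          (Finsupp.weight (wd M) (Finsupp.single j (k + 1)) - m))
        intro x hx
        rw [mem_antidiagonal] at hx
        have h1 := (ih x.1).mul (HP_xi M j x.2)
        rw [MvPolynomial.mem_weightedHomogeneousSubmodule]
        convert h1 using 1
        rw [Finsupp.weight_single, Finsupp.weight_single, ← hx, nsmul_eq_mul, nsmul_eq_mul]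
        push_cast
        ring

/-- the homogeneous component of degree `d` -/
def whc (d : M) : P →ₗ[ZMod 2] P := MvPolynomial.weightedHomogeneousComponent (wd M) d

lemma whc_same {d : M} {g : P} (h : MvPolynomial.IsWeightedHomogeneous (wd M) g d) :
    whc M d g = g := h.weightedHomogeneousComponent_same

lemma whc_ne {d e : M} {g : P} (h : MvPolynomial.IsWeightedHomogeneous (wd M) g e) (hde : d ≠ e) :
    whc M d g = 0 := h.weightedHomogeneousComponent_ne d hde

lemma whc_monomial (d : M) (u : ℕ →₀ ℕ) (a : ZMod 2) [Decidable (Finsupp.weight (wd M) u = d)] :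
    whc M d (MvPolynomial.monomial u a) =
      if Finsupp.weight (wd M) u = d then MvPolynomial.monomial u a else 0 := by
  have h := MvPolynomial.isWeightedHomogeneous_monomial (R := ZMod 2) (wd M) u a
    (m := Finsupp.weight (wd M) u) rfl
  split_ifs with h1
  · subst h1
    exact whc_same M h
  · exact whc_ne M h (fun h2 => h1 h2.symm)

lemma whc_Lp (m : ℕ) (d : M) (g : P) : whc M d (Lp m g) = Lp m (whc M (d + m) g) := by
  classical
  induction g using MvPolynomial.induction_on' with
  | monomial u a =>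
    rw [whc_monomial]
    have h := HP_monomial M u a m
    split_ifs with h1
    · apply whc_same
      rw [h1] at h
      simpa using h
    · rw [Lp_zero]
      apply whc_ne M h
      intro h2
      apply h1
      rw [h2]
      ring
  | add p q hp hq => rw [Lp_add, map_add, map_add, Lp_add, hp, hq]

lemma whc_tr (s : ℕ) (d : M) (g : P) : whc M d (tr s g) = tr s (whc M d g) := by
  classical
  induction g using MvPolynomial.induction_on' with
  | monomial u a =>
    rw [whc_monomial]
    by_cases h : ∃ j ∈ u.support, s ≤ j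
    · obtain ⟨j, hj, hsj⟩ := h
      have h1 : tr s (MvPolynomial.monomial u a) = 0 := by
        rw [monomial_split u a j hj, map_mul, tr_xi_gt (by omega), zero_mul]
      rw [h1, map_zero]
      split_ifs
      · rw [h1]
      · rw [map_zero]
    · push Not at h
      rw [tr_monomial s u a h, whc_monomial]
      split_ifs
      · rw [tr_monomial s u a h]
      · rw [map_zero]
  | add p q hp hq => rw [map_add, map_add, map_add, map_add, hp, hq]

lemma WB_whc (d : M) {W : ℤ} {g : P} (hg : WB W g) : WB W (whc M d g) := by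
  classical
  intro u hu
  apply hg
  rw [MvPolynomial.mem_support_iff] at hu ⊢
  intro h
  apply hu
  rw [whc, MvPolynomial.coeff_weightedHomogeneousComponent, h]
  simp

lemma wh_mon (σ : ℕ) (β : ℕ → ℕ) :
    MvPolynomial.IsWeightedHomogeneous (wd M) (mon σ β) (∑ j ∈ range σ, (β j : M) * wd M j) := by
  rw [mon]
  have := MvPolynomial.IsWeightedHomogeneous.prod (w := wd M) (R := ZMod 2) (range σ)
    (fun j => xi (j + 1) ^ β j) (fun j => (β j : M) * wd M j) (fun j _ => by
      have h := (MvPolynomial.isWeightedHomogeneous_X (ZMod 2) (wd M) j).pow (β j)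
      rw [nsmul_eq_mul] at h
      exact h)
  exact this

end grading

lemma wh_xi_pow (M : Type*) [CommRing M] (s k : ℕ) :
    MvPolynomial.IsWeightedHomogeneous (wd M) (xi (s + 1) ^ k) ((k : M) * wd M s) := by
  have h := (MvPolynomial.isWeightedHomogeneous_X (ZMod 2) (wd M) s).pow k
  rw [nsmul_eq_mul] at h
  exact h

lemma DL_X_zero_pow (j a : ℕ) :
    DL j (MvPolynomial.X 0 ^ a) = if j = 0 then MvPolynomial.X 0 ^ a else 0 := by
  induction a with
  | zero => rw [pow_zero, DL_one]
  | succ a ih =>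
    rw [pow_succ', DL_X_zero_mul, ih]
    split_ifs <;> simp

lemma LL_eval (m : ℕ) (p : F) (a : ℕ) :
    LL m p (MvPolynomial.X 0 ^ a) = Lp m (p (MvPolynomial.X 0 ^ a)) := by
  rw [LL_apply, sum_eq_single (m, 0)]
  · simp only
    rw [DL_zero]
  · intro x hx hx0
    rw [mem_antidiagonal] at hx
    rw [DL_X_zero_pow, if_neg, map_zero, Lp_zero]
    intro h
    apply hx0
    rcases x with ⟨b, c⟩
    simp only [Prod.mk.injEq] at hx h ⊢
    omega
  · intro h
    exact absurd (by simp) h

lemma eps_X_zero_pow (a : ℕ) : eps a (MvPolynomial.X 0 ^ a) = 1 := by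
  rw [eps]
  induction a with
  | zero => rw [pow_zero, c2_one, if_pos ⟨rfl, rfl⟩]
  | succ a ih => rw [pow_succ', c2_X_zero, if_neg (Nat.succ_ne_zero a), Nat.add_sub_cancel, ih]

/-- choice of the first even exponent -/
lemma first_even (σ n : ℕ) (β : ℕ → ℕ) (h : (∃ j < σ, Even (β j)) ∨ Even n) :
    ∃ κ ≤ σ, ∃ γ : ℕ → ℕ, (∀ j < κ, Even (γ j)) ∧ (κ < σ → Even (γ κ)) ∧ (κ = σ → Even n) ∧
      mon κ (fun _ => 1) * mon σ γ = mon σ β ∧
      κ + ∑ j ∈ range σ, γ j = ∑ j ∈ range σ, β j ∧ ((σ ≠ 0 ∧ Odd (β 0)) → 1 ≤ κ) := by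
  classical
  have hmin : ∃ κ ≤ σ, (∀ j < κ, Odd (β j)) ∧ (κ < σ → Even (β κ)) ∧ (κ = σ → Even n) := by
    by_cases h1 : ∃ j, j < σ ∧ Even (β j)
    · refine ⟨Nat.find h1, (Nat.find_spec h1).1.le, fun j hj => ?_, fun _ => (Nat.find_spec h1).2,
        fun h2 => ?_⟩
      · have h3 := Nat.find_min h1 hj
        rw [← Nat.not_even_iff_odd]
        intro h4
        exact h3 ⟨lt_trans hj (Nat.find_spec h1).1, h4⟩
      · have := (Nat.find_spec h1).1
        omega
    · refine ⟨σ, le_rfl, fun j hj => ?_, fun h2 => absurd h2 (lt_irrefl _), fun _ => ?_⟩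
      · rw [← Nat.not_even_iff_odd]
        intro h4
        exact h1 ⟨j, hj, h4⟩
      · rcases h with ⟨j, hj, h4⟩ | h4
        · exact absurd ⟨j, hj, h4⟩ h1
        · exact h4
  obtain ⟨κ, hκ, hodd, heven, hn⟩ := hmin
  have hκs : range κ ⊆ range σ := range_subset_range.2 hκ
  refine ⟨κ, hκ, fun j => if j < κ then β j - 1 else β j, fun j hj => ?_, fun h2 => ?_, hn, ?_, ?_,
    fun h2 => ?_⟩
  · simp only
    rw [if_pos hj]
    obtain ⟨b, hb⟩ := hodd j hj
    exact ⟨b, by omega⟩
  · simp only
    rw [if_neg (lt_irrefl _)]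
    exact heven h2
  · rw [mon, mon, mon]
    simp only [pow_one]
    rw [← prod_sdiff hκs, ← prod_sdiff (f := fun j => xi (j + 1) ^ β j) hκs, mul_left_comm,
      ← prod_mul_distrib]
    congr 1
    · refine prod_congr rfl fun j hj => ?_
      rw [mem_sdiff, mem_range, mem_range] at hj
      rw [if_neg hj.2]
    · refine prod_congr rfl fun j hj => ?_
      rw [mem_range] at hj
      obtain ⟨b, hb⟩ := hodd j hj
      rw [if_pos hj, ← pow_succ']
      congr 1
      omega
  · rw [← sum_sdiff hκs, ← sum_sdiff (f := β) hκs]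
    have e1 : ∑ j ∈ range σ \ range κ, (if j < κ then β j - 1 else β j) =
        ∑ j ∈ range σ \ range κ, β j := by
      refine sum_congr rfl fun j hj => ?_
      rw [mem_sdiff, mem_range, mem_range] at hj
      rw [if_neg hj.2]
    have e2 : ∑ j ∈ range κ, β j = (∑ j ∈ range κ, (if j < κ then β j - 1 else β j)) + κ := by
      have : ∀ j ∈ range κ, β j = (if j < κ then β j - 1 else β j) + 1 := by
        intro j hj
        rw [mem_range] at hj
        obtain ⟨b, hb⟩ := hodd j hj
        rw [if_pos hj]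
        omega
      rw [sum_congr rfl this, sum_add_distrib]
      congr 1
      simp
    rw [e1, e2]
    ring
  · by_contra h3
    have h4 : κ = 0 := by omega
    rcases Nat.eq_zero_or_pos σ with h5 | h5
    · exact h2.1 h5
    · have h6 := heven (by omega)
      rw [h4] at h6
      exact (Nat.not_even_iff_odd.2 h2.2) h6

/-- removal of a multiple of `1` by homogeneity -/
lemma proj_P (σ n : ℕ) (β : ℕ → ℕ) (hβ : ∑ j ∈ range σ, β j ≤ n) (hn : 1 ≤ n) (N : ℕ)
    (hN : n ≤ 2 * N) (h : P) (c : ZMod 2) (hw : WB (2 ^ (σ + 2) * N) (tr (σ + 2) h))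
    (hb : tr (σ + 1) (Lp (N + 1) h) =
      tr (σ + 1) (xi (σ + 1) ^ (2 * N - n) * (mon σ β + c • xi (σ + 1) ^ n))) :
    ∃ h' : P, tr (σ + 2) h' = h' ∧ WB (2 ^ (σ + 2) * N) h' ∧ tr (σ + 1) (Lp (N + 1) h') =
      xi (σ + 1) ^ (2 * N - n) * mon σ β := by
  obtain ⟨d, hd⟩ : ∃ d : ℤ, d = ((2 * N - n : ℕ) : ℤ) * wd ℤ σ +
    ∑ j ∈ range σ, (β j : ℤ) * wd ℤ j := ⟨_, rfl⟩
  refine ⟨whc ℤ (d + (N + 1 : ℕ)) (tr (σ + 2) h), ?_, WB_whc ℤ _ hw, ?_⟩
  · rw [← whc_tr, tr_idem]
  · rw [whc_tr, tr_Lp_tr, ← whc_Lp, ← whc_tr, hb, whc_tr, mul_add, map_add, map_add]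
    have h1 : MvPolynomial.IsWeightedHomogeneous (wd ℤ) (xi (σ + 1) ^ (2 * N - n) * mon σ β) d := by
      rw [hd]
      exact (wh_xi_pow ℤ σ _).mul (wh_mon ℤ σ β)
    have h2 : xi (σ + 1) ^ (2 * N - n) * c • xi (σ + 1) ^ n = c • xi (σ + 1) ^ (2 * N) := by
      rw [mul_smul_comm, ← pow_add]
      congr 2
      omega
    have h3 : whc ℤ d (xi (σ + 1) ^ (2 * N)) = 0 := by
      apply whc_ne ℤ (wh_xi_pow ℤ σ (2 * N))
      rw [hd]
      have e1 : ((2 * N - n : ℕ) : ℤ) = 2 * N - n := by
        rw [Nat.cast_sub hN]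
        push_cast
        ring
      have e2 : ∑ j ∈ range σ, (β j : ℤ) * wd ℤ j ≤
          ∑ j ∈ range σ, (β j : ℤ) * (2 ^ σ - 1) := by
        apply sum_le_sum
        intro j hj
        rw [mem_range] at hj
        apply mul_le_mul_of_nonneg_left _ (by positivity)
        rw [wd]
        have : (2 : ℤ) ^ (j + 1) ≤ 2 ^ σ := pow_le_pow_right₀ (by norm_num) hj
        linarith
      rw [← sum_mul] at e2
      have e3 : (∑ j ∈ range σ, (β j : ℤ)) ≤ n := by exact_mod_cast hβ
      have e4 : (1 : ℤ) ≤ 2 ^ σ := one_le_pow₀ (by norm_num)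
      have e5 : (∑ j ∈ range σ, (β j : ℤ)) * (2 ^ σ - 1) ≤ n * (2 ^ σ - 1) :=
        mul_le_mul_of_nonneg_right e3 (by linarith)
      have e6 : (1 : ℤ) ≤ n := by exact_mod_cast hn
      have e7 : wd ℤ σ = 2 * 2 ^ σ - 1 := by rw [wd, pow_succ]; ring
      rw [e1, e7]
      push_cast
      intro h
      nlinarith
    rw [h2, map_smul, h3, smul_zero, map_zero, add_zero, whc_same ℤ h1, map_mul, map_pow,
      tr_xi_le le_rfl]
    congr 1
    rw [mon, map_prod]
    refine prod_congr rfl fun j hj => ?_
    rw [mem_range] at hj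
    rw [map_pow, tr_xi_le (by omega)]

/-- polynomial form of the theorem for monomials with an even exponent -/
theorem main_P1 (σ n : ℕ) (β : ℕ → ℕ) (hβ : ∑ j ∈ range σ, β j ≤ n) (hn : 1 ≤ n)
    (hodd : (∃ j < σ, Even (β j)) ∨ Even n) :
    ∃ (N : ℕ) (h : P), n ≤ 2 * N ∧ tr (σ + 2) h = h ∧ WB (2 ^ (σ + 2) * N) h ∧
      tr (σ + 1) (Lp (N + 1) h) = xi (σ + 1) ^ (2 * N - n) * mon σ β := by
  obtain ⟨κ, hκ, γ, hγ, h1, h2, hmon, hsum, _⟩ := first_even σ n β hodd
  obtain ⟨f, N, hN, p, _, hw, hb⟩ := case1_Bd σ κ n (n - ∑ j ∈ range σ, β j) hκ γ hγ h1 h2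
    (by omega) hn
  obtain ⟨a, ha⟩ : ∃ a, a = n - ∑ j ∈ range σ, β j := ⟨_, rfl⟩
  rw [← ha] at hb
  have hb' := hb (MvPolynomial.X 0 ^ a)
  rw [LL_eval, hmon, LinearMap.add_apply, ten_apply, ten_apply, eps_X_zero_pow, one_smul] at hb'
  obtain ⟨h', h3, h4, h5⟩ := proj_P σ n β hβ hn N hN _ _ (hw _) hb'
  exact ⟨N, h', hN, h3, h4, h5⟩

end

end Vale.Agent.P263.H718
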