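import Vale.Agent.P263.H718.Defs
import Vale.Agent.P263.H718.Proj

/-!
From polynomials in the `xi_j` to Singer's complex.
-/

namespace Vale.Agent.P263.H718

open Finset

noncomputable section

instance : CharP Lau 2 := by
  have : (2 : Lau) = 0 := by
    have h : (2 : Lau) = algebraMap (ZMod 2) Lau 2 := (map_ofNat _ 2).symm
    rw [h, show (2 : ZMod 2) = 0 from rfl, map_zero]
  exact CharTwo.of_one_ne_zero_of_two_eq_zero one_ne_zero this

/-- `v_{i+1}^{-1}` -/
def tv (i : ℕ) : Lau := AddMonoidAlgebra.single (Finsupp.single i (-1)) 1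

lemma tv_mul_v (i : ℕ) : tv i * v i = 1 := by
  rw [tv, v, AddMonoidAlgebra.single_mul_single, ← Finsupp.single_add]
  simp [AddMonoidAlgebra.one_def]

/-- the elements `xi_j` in rank `s` -/
def xiL : ℕ → ℕ → Lau
  | 0, 0 => 1
  | 0, _ + 1 => 0
  | _ + 1, 0 => 1
  | s + 1, j + 1 => xiL s (j + 1) + tv s * xiL s j ^ 2

lemma xiL_zero (s : ℕ) : xiL s 0 = 1 := by cases s <;> rfl

lemma xiL_gt : ∀ s j, s < j → xiL s j = 0 := by
  intro s
  induction s with
  | zero => intro j hj; obtain ⟨k, rfl⟩ : ∃ k, j = k + 1 := ⟨j - 1, by omega⟩; rfl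
  | succ s ih =>
    intro j hj
    obtain ⟨k, rfl⟩ : ∃ k, j = k + 1 := ⟨j - 1, by omega⟩
    rw [xiL, ih _ (by omega), ih _ (by omega)]
    simp

lemma xiL_top (s : ℕ) : xiL (s + 1) (s + 1) = tv s * xiL s s ^ 2 := by
  rw [xiL, xiL_gt s (s + 1) (by omega), zero_add]

lemma Q_mul_xiL_top (s : ℕ) : Q s 0 * xiL s s = 1 := by
  induction s with
  | zero => simp [Q, xiL]
  | succ s ih =>
    rw [xiL_top, Q]
    calc v s * Q s 0 * Q s 0 * (tv s * xiL s s ^ 2)
        = (tv s * v s) * (Q s 0 * xiL s s) ^ 2 := by ring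
      _ = 1 := by rw [tv_mul_v, ih]; ring

lemma Q_mul (s : ℕ) : ∀ j, Q s j * xiL s s = xiL s j := by
  induction s with
  | zero => intro j; cases j <;> simp [Q, xiL]
  | succ s ih =>
    intro j
    cases j with
    | zero => rw [Q_mul_xiL_top]; rfl
    | succ j =>
      rw [xiL_top, Q, xiL]
      calc (Q s j ^ 2 + v s * Q s 0 * Q s (j + 1)) * (tv s * xiL s s ^ 2)
          = tv s * (Q s j * xiL s s) ^ 2 +
            (tv s * v s) * (Q s 0 * xiL s s) * (Q s (j + 1) * xiL s s) := by ring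
        _ = xiL s (j + 1) + tv s * xiL s j ^ 2 := by
          rw [ih j, Q_mul_xiL_top, tv_mul_v, ih (j + 1)]; ring

lemma xiL_mul_Q (s j : ℕ) : xiL s j * Q s 0 = Q s j := by
  rw [← Q_mul s j, mul_assoc, mul_comm (xiL s s), Q_mul_xiL_top, mul_one]

lemma Q_top (s : ℕ) : Q s s = 1 := by
  rw [← xiL_mul_Q, mul_comm, Q_mul_xiL_top]

/-- evaluation of polynomials in the `xi_j` in rank `s` -/
def ev (s : ℕ) : P →ₐ[ZMod 2] Lau := MvPolynomial.aeval fun j => xiL s (j + 1)

lemma ev_xi (s j : ℕ) : ev s (xi j) = xiL s j := by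
  cases j with
  | zero => rw [xi_zero, map_one, xiL_zero]
  | succ j => rw [xi_succ, ev, MvPolynomial.aeval_X]

lemma ev_tr (s : ℕ) (g : P) : ev s (tr s g) = ev s g := by
  have : (ev s).comp (tr s) = ev s := by
    apply MvPolynomial.algHom_ext
    intro j
    have h1 := tr_xi s (j + 1)
    have h2 := ev_xi s (j + 1)
    rw [xi_succ] at h1 h2
    rw [AlgHom.comp_apply, h1]
    split_ifs with h
    · rfl
    · rw [map_zero, h2, xiL_gt _ _ (by omega)]
  exact AlgHom.congr_fun this g

lemma ev_succ (s : ℕ) (g : P) :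
    ev (s + 1) g = (sig g).eval₂ (ev s : P →+* Lau) (tv s) := by
  have : (ev (s + 1) : P →+* Lau) =
      (Polynomial.eval₂RingHom (ev s : P →+* Lau) (tv s)).comp (sig : P →+* Polynomial P) := by
    apply MvPolynomial.ringHom_ext
    · intro r
      simp
    · intro j
      have h1 := ev_xi (s + 1) (j + 1)
      have h2 := sig_xi_succ j
      rw [xi_succ] at h1 h2
      simp only [RingHom.comp_apply, RingHom.coe_coe]
      rw [h1, h2, xiL, ← xi_succ]
      simp only [Polynomial.coe_eval₂RingHom, Polynomial.eval₂_add, Polynomial.eval₂_mul,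
        Polynomial.eval₂_pow, Polynomial.eval₂_C, Polynomial.eval₂_X, RingHom.coe_coe]
      rw [ev_xi, ev_xi]
  exact RingHom.congr_fun this g

/-- no variable `v_{i+1}`, `i ≥ s`, occurs -/
def Low (s : ℕ) (x : Lau) : Prop := ∀ e ∈ x.coeff.support, ∀ i, s ≤ i → e i = 0

lemma Low_zero (s : ℕ) : Low s 0 := by
  intro e he
  simp at he

lemma Low_single (s : ℕ) (e : ℕ →₀ ℤ) (c : ZMod 2) (h : ∀ i, s ≤ i → e i = 0) :
    Low s (AddMonoidAlgebra.single e c) := by
  intro e' he'
  rw [AddMonoidAlgebra.coeff_single] at he'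
  have := Finsupp.support_single_subset he'
  rw [mem_singleton] at this
  rw [this]
  exact h

lemma Low_one (s : ℕ) : Low s 1 := by
  rw [AddMonoidAlgebra.one_def]
  exact Low_single s 0 1 (fun i _ => rfl)

lemma Low_add {s : ℕ} {x y : Lau} (hx : Low s x) (hy : Low s y) : Low s (x + y) := by
  classical
  intro e he
  rw [AddMonoidAlgebra.coeff_add] at he
  rcases mem_union.1 (Finsupp.support_add he) with h | h
  · exact hx e h
  · exact hy e h

lemma Low_mul {s : ℕ} {x y : Lau} (hx : Low s x) (hy : Low s y) : Low s (x * y) := by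
  classical
  intro e he i hi
  obtain ⟨a, ha, b, hb, rfl⟩ := Finset.mem_add.1 (AddMonoidAlgebra.support_coeff_mul_subset x y he)
  rw [Finsupp.add_apply, hx a ha i hi, hy b hb i hi, add_zero]

lemma Low_pow {s : ℕ} {x : Lau} (hx : Low s x) (n : ℕ) : Low s (x ^ n) := by
  induction n with
  | zero => rw [pow_zero]; exact Low_one s
  | succ n ih => rw [pow_succ]; exact Low_mul ih hx

lemma Low_mono {s t : ℕ} {x : Lau} (h : s ≤ t) (hx : Low s x) : Low t x :=
  fun e he i hi => hx e he i (le_trans h hi)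

lemma Low_v (s : ℕ) : Low (s + 1) (v s) := by
  apply Low_single
  intro i hi
  rw [Finsupp.single_apply, if_neg (by omega)]

lemma Low_tv (s : ℕ) : Low (s + 1) (tv s) := by
  apply Low_single
  intro i hi
  rw [Finsupp.single_apply, if_neg (by omega)]

lemma Low_xiL (s : ℕ) : ∀ j, Low s (xiL s j) := by
  induction s with
  | zero => intro j; cases j with
    | zero => exact Low_one 0
    | succ j => exact Low_zero 0
  | succ s ih =>
    intro j
    cases j with
    | zero => exact Low_one _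
    | succ j =>
      rw [xiL]
      exact Low_add (Low_mono (by omega) (ih _))
        (Low_mul (Low_tv s) (Low_pow (Low_mono (by omega) (ih j)) 2))

lemma Low_Q (s : ℕ) : ∀ j, Low s (Q s j) := by
  induction s with
  | zero => intro j; cases j with
    | zero => exact Low_one 0
    | succ j => exact Low_zero 0
  | succ s ih =>
    have ih' : ∀ j, Low (s + 1) (Q s j) := fun j => Low_mono (by omega) (ih j)
    intro j
    cases j with
    | zero =>
      rw [Q]
      exact Low_mul (Low_mul (Low_v s) (ih' 0)) (ih' 0)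
    | succ j =>
      rw [Q]
      exact Low_add (Low_pow (ih' j) 2) (Low_mul (Low_mul (Low_v s) (ih' 0)) (ih' _))

lemma Low_ev (s : ℕ) (g : P) : Low s (ev s g) := by
  refine E_induction (M := fun g => Low s (ev s g)) ?_ ?_ ?_ ?_ g
  · rw [map_zero]; exact Low_zero s
  · rw [map_one]; exact Low_one s
  · intro p q hp hq; rw [map_add]; exact Low_add hp hq
  · intro k p hp
    rw [map_mul, ← xi_succ, ev_xi]
    exact Low_mul (Low_xiL s _) hp

lemma bdry_add (s : ℕ) (x y : Lau) : bdry s (x + y) = bdry s x + bdry s y := by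
  rw [bdry, bdry, bdry, AddMonoidAlgebra.coeff_add, Finsupp.sum_add_index']
  · intro e
    split_ifs <;> simp
  · intro e c c'
    split_ifs <;> simp

lemma bdry_zero (s : ℕ) : bdry s 0 = 0 := by simp [bdry]

lemma bdry_sum {ι : Type*} (s : ℕ) (S : Finset ι) (f : ι → Lau) :
    bdry s (∑ i ∈ S, f i) = ∑ i ∈ S, bdry s (f i) := by
  classical
  induction S using Finset.induction_on with
  | empty => simp [bdry_zero]
  | insert a S ha ih => rw [sum_insert ha, sum_insert ha, bdry_add, ih]

lemma bdry_single (s : ℕ) (e : ℕ →₀ ℤ) (c : ZMod 2) : bdry s (AddMonoidAlgebra.single e c) =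
    if e s = -1 then AddMonoidAlgebra.single (e.erase s) c else 0 := by
  rw [bdry, AddMonoidAlgebra.coeff_single, Finsupp.sum_single_index]
  split_ifs <;> simp

lemma bdry_mul_single (s : ℕ) (x : Lau) (hx : Low s x) (k : ℤ) :
    bdry s (x * AddMonoidAlgebra.single (Finsupp.single s k) 1) = if k = -1 then x else 0 := by
  have hx' : x = ∑ e ∈ x.coeff.support, AddMonoidAlgebra.single e (x.coeff e) := by
    have h := x.coeff.sum_single
    apply AddMonoidAlgebra.coeff_injective
    conv_lhs => rw [← h]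
    rw [Finsupp.sum, AddMonoidAlgebra.coeff_sum]
    simp
  have hterm : ∀ e ∈ x.coeff.support, bdry s (AddMonoidAlgebra.single e (x.coeff e) *
      AddMonoidAlgebra.single (Finsupp.single s k) 1) =
      if k = -1 then AddMonoidAlgebra.single e (x.coeff e) else 0 := by
    intro e he
    have h0 : e s = 0 := hx e he s le_rfl
    rw [AddMonoidAlgebra.single_mul_single, bdry_single, mul_one, Finsupp.add_apply,
      Finsupp.single_eq_same, h0, zero_add]
    split_ifs with hk
    · congr 1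
      ext i
      rw [Finsupp.erase_apply]
      split_ifs with hi
      · rw [hi, h0]
      · rw [Finsupp.add_apply, Finsupp.single_apply, if_neg (fun h => hi h.symm), add_zero]
    · rfl
  conv_lhs => rw [hx']
  rw [sum_mul, bdry_sum, sum_congr rfl hterm]
  split_ifs
  · exact hx'.symm
  · simp

lemma v_pow (s n : ℕ) : v s ^ n = AddMonoidAlgebra.single (Finsupp.single s (n : ℤ)) 1 := by
  rw [v, AddMonoidAlgebra.single_pow, one_pow, Finsupp.smul_single]
  simp

lemma tv_pow (s n : ℕ) : tv s ^ n = AddMonoidAlgebra.single (Finsupp.single s (-(n : ℤ))) 1 := by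
  rw [tv, AddMonoidAlgebra.single_pow, one_pow, Finsupp.smul_single]
  simp

/-- the boundary in terms of `Lp` -/
lemma bdry_ev (s N : ℕ) (h : P) :
    bdry s (ev (s + 1) h * Q (s + 1) 0 ^ N) = ev s (Lp (N + 1) h) * Q s 0 ^ (2 * N) := by
  have hQ : Q (s + 1) 0 ^ N = v s ^ N * Q s 0 ^ (2 * N) := by
    rw [Q, mul_assoc, mul_pow, ← sq, ← pow_mul]
  rw [ev_succ, Polynomial.eval₂_eq_sum_range' _ (n := (sig h).natDegree + N + 2) (by omega),
    sum_mul, bdry_sum, sum_eq_single (N + 1)]
  · have e1 : (ev s : P →+* Lau) ((sig h).coeff (N + 1)) * tv s ^ (N + 1) * Q (s + 1) 0 ^ N =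
        (ev s (Lp (N + 1) h) * Q s 0 ^ (2 * N)) *
        AddMonoidAlgebra.single (Finsupp.single s (-1)) 1 := by
      rw [hQ]
      have : tv s ^ (N + 1) * v s ^ N = tv s := by
        rw [pow_succ', mul_assoc, ← mul_pow, tv_mul_v, one_pow, mul_one]
      calc (ev s : P →+* Lau) ((sig h).coeff (N + 1)) * tv s ^ (N + 1) *
            (v s ^ N * Q s 0 ^ (2 * N))
          = ((ev s : P →+* Lau) ((sig h).coeff (N + 1)) * Q s 0 ^ (2 * N)) *
            (tv s ^ (N + 1) * v s ^ N) := by ring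
        _ = _ := by rw [this]; rfl
    rw [e1, bdry_mul_single s _ (Low_mul (Low_ev s _) (Low_pow (Low_Q s 0) _)), if_pos rfl]
  · intro m _ hm
    have e1 : (ev s : P →+* Lau) ((sig h).coeff m) * tv s ^ m * Q (s + 1) 0 ^ N =
        (ev s (Lp m h) * Q s 0 ^ (2 * N)) *
        AddMonoidAlgebra.single (Finsupp.single s ((N : ℤ) - m)) 1 := by
      rw [hQ]
      have : tv s ^ m * v s ^ N =
          AddMonoidAlgebra.single (Finsupp.single s ((N : ℤ) - m)) 1 := by
        rw [tv_pow, v_pow, AddMonoidAlgebra.single_mul_single, ← Finsupp.single_add, mul_one]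
        congr 2
        ring
      calc (ev s : P →+* Lau) ((sig h).coeff m) * tv s ^ m * (v s ^ N * Q s 0 ^ (2 * N))
          = ((ev s : P →+* Lau) ((sig h).coeff m) * Q s 0 ^ (2 * N)) * (tv s ^ m * v s ^ N) := by
            ring
        _ = _ := by rw [this]; rfl
    rw [e1, bdry_mul_single s _ (Low_mul (Low_ev s _) (Low_pow (Low_Q s 0) _)), if_neg]
    intro h
    apply hm
    omega
  · intro h
    exact absurd (mem_range.2 (by omega)) h

/-- bounded weight means membership in `Γ⁺` -/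
lemma ev_mem (s N : ℕ) (h : P) (ht : tr s h = h) (hw : WB (2 ^ s * N) h) :
    ev s h * Q s 0 ^ N ∈ GammaPlus s := by
  classical
  have hsum : h = ∑ u ∈ h.support, MvPolynomial.monomial u (MvPolynomial.coeff u h) :=
    (MvPolynomial.support_sum_monomial_coeff h).symm
  have h1 : ev s h * Q s 0 ^ N = ∑ u ∈ h.support,
      ev s (tr s (MvPolynomial.monomial u (MvPolynomial.coeff u h))) * Q s 0 ^ N := by
    conv_lhs => rw [hsum]
    rw [map_sum, sum_mul]
    refine sum_congr rfl fun u _ => ?_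
    rw [ev_tr]
  rw [h1]
  apply Submodule.sum_mem
  intro u hu
  by_cases hus : ∃ j ∈ u.support, s ≤ j
  · obtain ⟨j, hj, hsj⟩ := hus
    rw [monomial_split u _ j hj, map_mul, tr_xi_gt (by omega), zero_mul, map_zero, zero_mul]
    exact Submodule.zero_mem _
  · push Not at hus
    rw [tr_monomial s u _ hus]
    have hcoef : MvPolynomial.coeff u h = 1 := by
      have h2 := MvPolynomial.mem_support_iff.1 hu
      generalize MvPolynomial.coeff u h = c at h2
      revert c
      decide
    rw [hcoef]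
    apply Submodule.subset_span
    have hprod : (MvPolynomial.monomial u 1 : P) = ∏ j ∈ range s, xi (j + 1) ^ u j := by
      rw [MvPolynomial.monomial_eq, map_one, one_mul, Finsupp.prod]
      have hsub : u.support ⊆ range s := fun j hj => mem_range.2 (hus j hj)
      rw [prod_subset hsub]
      · rfl
      · intro j _ hj
        rw [Finsupp.notMem_support_iff.1 hj, pow_zero]
    have hwt : wt u = ∑ j ∈ range s, u j * 2 ^ (j + 1) := by
      rw [wt, Finsupp.weight_apply, Finsupp.sum]
      have hsub : u.support ⊆ range s := fun j hj => mem_range.2 (hus j hj)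
      rw [sum_subset hsub]
      · rfl
      · intro j _ hj
        rw [Finsupp.notMem_support_iff.1 hj, zero_smul]
    refine ⟨∑ j ∈ range s, u j, N, fun j => u (j - 1), ?_, ?_⟩
    · rw [hprod, map_prod]
      have e1 : (∏ j ∈ range s, ev s (xi (j + 1) ^ u j)) * Q s 0 ^ N *
          Q s 0 ^ (∑ j ∈ range s, u j) = Q s 0 ^ N * ∏ j ∈ range s, Q s (j + 1) ^ u j := by
        rw [← prod_pow_eq_pow_sum, mul_right_comm, ← prod_mul_distrib, mul_comm]
        congr 1
        refine prod_congr rfl fun j _ => ?_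
        rw [map_pow, ev_xi, ← mul_pow, xiL_mul_Q]
      rw [e1]
      congr 1
      cases s with
      | zero => simp
      | succ s =>
        rw [prod_range_succ, Q_top, one_pow, mul_one, range_eq_Ico]
        have := (prod_Ico_add' (fun j => Q (s + 1) j ^ u (j - 1)) 0 s 1)
        simpa using this
    · have h2 := hw u hu
      have h3 : wt u ≤ 2 ^ s * N := by exact_mod_cast h2
      rw [hwt] at h3
      cases s with
      | zero => simp
      | succ s =>
        have h4 : ∑ j ∈ Ico 1 (s + 1), u (j - 1) * (2 ^ (s + 1) - 2 ^ j) +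
            ∑ j ∈ range s, u j * 2 ^ (j + 1) = 2 ^ (s + 1) * ∑ j ∈ range s, u j := by
          have h5 : ∑ j ∈ Ico 1 (s + 1), u (j - 1) * (2 ^ (s + 1) - 2 ^ j) =
              ∑ j ∈ range s, u j * (2 ^ (s + 1) - 2 ^ (j + 1)) := by
            rw [range_eq_Ico]
            have := (sum_Ico_add' (fun j => u (j - 1) * (2 ^ (s + 1) - 2 ^ j)) 0 s 1).symm
            simpa using this
          rw [h5, ← sum_add_distrib, mul_sum]
          refine sum_congr rfl fun j hj => ?_
          rw [mem_range] at hj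
          have h6 : 2 ^ (j + 1) ≤ 2 ^ (s + 1) := Nat.pow_le_pow_right (by norm_num) (by omega)
          rw [← mul_add, Nat.sub_add_cancel h6, mul_comm]
        rw [sum_range_succ] at h3 ⊢
        rw [mul_add]
        have h7 : u s * 2 ^ (s + 1) = 2 ^ (s + 1) * u s := mul_comm _ _
        simp only at h4 ⊢
        omega

/-- from the polynomial form to `Γ⁺` -/
lemma bridge (σ N n : ℕ) (hN : n ≤ 2 * N) (h : P) (g : P) (ht : tr (σ + 2) h = h)
    (hw : WB (2 ^ (σ + 2) * N) h)
    (hb : tr (σ + 1) (Lp (N + 1) h) = xi (σ + 1) ^ (2 * N - n) * g) :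
    ∃ x ∈ GammaPlus (σ + 2), bdry (σ + 1) x = ev (σ + 1) g * Q (σ + 1) 0 ^ n := by
  refine ⟨_, ev_mem (σ + 2) N h ht hw, ?_⟩
  rw [bdry_ev, ← ev_tr (σ + 1) (Lp (N + 1) h), hb, map_mul, map_pow, ev_xi]
  have e1 : Q (σ + 1) 0 ^ (2 * N) = Q (σ + 1) 0 ^ (2 * N - n) * Q (σ + 1) 0 ^ n := by
    rw [← pow_add]
    congr 1
    omega
  rw [e1]
  calc xiL (σ + 1) (σ + 1) ^ (2 * N - n) * ev (σ + 1) g *
        (Q (σ + 1) 0 ^ (2 * N - n) * Q (σ + 1) 0 ^ n)
      = (Q (σ + 1) 0 * xiL (σ + 1) (σ + 1)) ^ (2 * N - n) *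
        (ev (σ + 1) g * Q (σ + 1) 0 ^ n) := by rw [mul_pow]; ring
    _ = _ := by rw [Q_mul_xiL_top, one_pow, one_mul]

lemma ev_mon (σ n : ℕ) (i : ℕ → ℕ) (hn : n = ∑ j ∈ range (σ + 1), i j) :
    ev (σ + 1) (mon σ (fun j => i (j + 1))) * Q (σ + 1) 0 ^ n =
      ∏ j ∈ range (σ + 1), Q (σ + 1) j ^ i j := by
  rw [hn, sum_range_succ', pow_add, prod_range_succ', ← prod_pow_eq_pow_sum, ← mul_assoc]
  congr 1
  rw [mon, map_prod, ← prod_mul_distrib]
  refine prod_congr rfl fun j _ => ?_
  rw [map_pow, ev_xi, ← mul_pow, xiL_mul_Q]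

/-- Stage I -/
theorem stage1 (s : ℕ) (i : ℕ → ℕ) (hpos : ∃ j < s, i j ≠ 0)
    (heven : (∃ j, 1 ≤ j ∧ j < s ∧ Even (i j)) ∨ Even (∑ j ∈ range s, i j)) :
    ∃ x ∈ GammaPlus (s + 1), bdry s x = ∏ j ∈ range s, Q s j ^ i j := by
  obtain ⟨σ, rfl⟩ : ∃ σ, s = σ + 1 := by
    obtain ⟨j, hj, _⟩ := hpos
    exact ⟨s - 1, by omega⟩
  have hn : 1 ≤ ∑ j ∈ range (σ + 1), i j := by
    obtain ⟨j, hj, hj0⟩ := hpos
    have := single_le_sum (f := i) (fun _ _ => Nat.zero_le _) (mem_range.2 hj)
    omega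
  obtain ⟨N, h, hN, ht, hw, hb⟩ := main_P1 σ (∑ j ∈ range (σ + 1), i j) (fun j => i (j + 1))
    (by rw [sum_range_succ']; omega) hn (by
      rcases heven with ⟨j, h1, h2, h3⟩ | h
      · left
        refine ⟨j - 1, by omega, ?_⟩
        rwa [show j - 1 + 1 = j by omega]
      · right; exact h)
  obtain ⟨x, hx, hx'⟩ := bridge σ N _ hN h _ ht hw hb
  exact ⟨x, hx, by rw [hx', ev_mon σ _ i rfl]⟩

end

end Vale.Agent.P263.H718
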