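import Vale.Agent.P263.H718.Chain

/-!
Monomials with an even exponent: the explicit chain.
-/

namespace Vale.Agent.P263.H718

open Finset

noncomputable section

/-- the coefficient of `eta_0^a eta_1^b` -/
def c2 (a b : ℕ) : E →ₗ[ZMod 2] ZMod 2 :=
  MvPolynomial.lcoeff (ZMod 2) (Finsupp.single 0 a + Finsupp.single 1 b)

lemma c2_apply (a b : ℕ) (G : E) :
    c2 a b G = MvPolynomial.coeff (Finsupp.single 0 a + Finsupp.single 1 b) G := rfl

lemma c2_one (a b : ℕ) : c2 a b 1 = if a = 0 ∧ b = 0 then 1 else 0 := by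
  rw [c2_apply, MvPolynomial.coeff_one]
  by_cases h : a = 0 ∧ b = 0
  · rw [if_pos h, if_pos]
    rw [h.1, h.2]
    simp
  · rw [if_neg h, if_neg]
    intro h0
    apply h
    have h1 := DFunLike.congr_fun h0 0
    have h2 := DFunLike.congr_fun h0 1
    simp at h1 h2
    omega

lemma c2_X_zero (a b : ℕ) (G : E) :
    c2 a b (MvPolynomial.X 0 * G) = if a = 0 then 0 else c2 (a - 1) b G := by
  rw [c2_apply]
  cases a with
  | zero =>
    rw [MvPolynomial.coeff_X_mul', if_neg, if_pos rfl]
    simp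
  | succ a =>
    rw [if_neg (by omega), Nat.add_sub_cancel, c2_apply]
    rw [show Finsupp.single 0 (a + 1) + Finsupp.single 1 b =
      Finsupp.single 0 1 + (Finsupp.single 0 a + Finsupp.single 1 b) by
        rw [← add_assoc, ← Finsupp.single_add, add_comm 1 a]]
    exact MvPolynomial.coeff_X_mul _ _ _

lemma c2_X_one (a b : ℕ) (G : E) :
    c2 a b (MvPolynomial.X 1 * G) = if b = 0 then 0 else c2 a (b - 1) G := by
  rw [c2_apply]
  cases b with
  | zero =>
    rw [MvPolynomial.coeff_X_mul', if_neg, if_pos rfl]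
    simp
  | succ b =>
    rw [if_neg (by omega), Nat.add_sub_cancel, c2_apply]
    rw [show Finsupp.single 0 a + Finsupp.single 1 (b + 1) =
      Finsupp.single 1 1 + (Finsupp.single 0 a + Finsupp.single 1 b) by
        rw [add_left_comm, ← Finsupp.single_add, add_comm 1 b]]
    exact MvPolynomial.coeff_X_mul _ _ _

lemma c2_X_ge (a b k : ℕ) (G : E) : c2 a b (MvPolynomial.X (k + 2) * G) = 0 := by
  rw [c2_apply, MvPolynomial.coeff_X_mul', if_neg]
  simp

/-- the coefficient of `eta_0^a` -/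
def eps (a : ℕ) : E →ₗ[ZMod 2] ZMod 2 := c2 a 0

lemma DL_one (j : ℕ) : DL j 1 = if j = 0 then 1 else 0 := by
  rw [DL_apply, map_one, Polynomial.coeff_one]

lemma C_eq (r : ZMod 2) : (MvPolynomial.C r : E) = 0 ∨ (MvPolynomial.C r : E) = 1 := by
  have hr : r = 0 ∨ r = 1 := by
    fin_cases r
    · exact Or.inl rfl
    · exact Or.inr rfl
  rcases hr with rfl | rfl
  · left; exact map_zero _
  · right; exact map_one _

/-- an induction principle for linear statements -/
lemma E_induction {M : E → Prop} (h0 : M 0) (h1 : M 1) (hadd : ∀ p q, M p → M q → M (p + q))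
    (hX : ∀ k p, M p → M (MvPolynomial.X k * p)) (G : E) : M G := by
  induction G using MvPolynomial.induction_on with
  | C r => rcases C_eq r with h | h <;> rw [h] <;> assumption
  | add p q hp hq => exact hadd p q hp hq
  | mul_X p k hp => rw [mul_comm]; exact hX k p hp

lemma eps_DL (G : E) : ∀ a j, eps a (DL j G) = if j ≤ a then c2 (a - j) j G else 0 := by
  refine E_induction (M := fun G => ∀ a j, eps a (DL j G) =
    if j ≤ a then c2 (a - j) j G else 0) ?_ ?_ ?_ ?_ G
  · intro a j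
    rw [map_zero, map_zero, map_zero]
    simp
  · intro a j
    rw [DL_one, c2_one, eps]
    by_cases hj : j = 0
    · subst hj
      rw [if_pos rfl, c2_one]
      simp
    · rw [if_neg hj, map_zero]
      simp [hj]
  · intro p q hp hq a j
    rw [map_add, map_add, hp, hq, map_add]
    split_ifs <;> simp
  · intro k p hp a j
    rcases k with _ | _ | k
    · rw [DL_X_zero_mul, eps, c2_X_zero, c2_X_zero]
      cases a with
      | zero =>
        simp
      | succ a =>
        have h1 := hp a j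
        rw [eps] at h1
        rw [if_neg (Nat.succ_ne_zero a), Nat.add_sub_cancel, h1]
        by_cases hj : j ≤ a
        · rw [if_pos hj, if_pos (show j ≤ a + 1 by omega), if_neg (show ¬ (a + 1 - j = 0) by omega),
            show a + 1 - j - 1 = a - j by omega]
        · rw [if_neg hj]
          by_cases hj' : j ≤ a + 1
          · rw [if_pos hj', if_pos (show a + 1 - j = 0 by omega)]
          · rw [if_neg hj']
    · rw [zero_add, show (1 : ℕ) = 0 + 1 from rfl, DL_X_succ_mul, map_add, eps, zero_add, c2_X_one,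
        c2_X_one, if_pos rfl, zero_add, pow_zero]
      cases j with
      | zero => simp
      | succ j =>
        rw [if_pos (show 1 ≤ j + 1 by omega), if_neg (Nat.succ_ne_zero j), c2_X_zero,
          Nat.add_sub_cancel]
        cases a with
        | zero => simp
        | succ a =>
          have h1 := hp a j
          rw [eps] at h1
          rw [if_neg (Nat.succ_ne_zero a), Nat.add_sub_cancel, h1]
          by_cases hj : j ≤ a
          · rw [if_pos hj, if_pos (show j + 1 ≤ a + 1 by omega), Nat.add_sub_add_right]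
          · rw [if_neg hj, if_neg (show ¬ (j + 1 ≤ a + 1) by omega)]
    · rw [DL_X_succ_mul, map_add, eps, c2_X_ge, c2_X_ge]
      have h2 : c2 a 0 (if 2 ^ (k + 1) ≤ j then
          MvPolynomial.X (k + 1) * DL (j - 2 ^ (k + 1)) p else 0) = 0 := by
        split_ifs
        · cases k with
          | zero => rw [zero_add, c2_X_one, if_pos rfl]
          | succ k => rw [show k + 1 + 1 = k + 2 from rfl, c2_X_ge]
        · rw [map_zero]
      rw [h2]
      simp

lemma c2_zero_VA (G : E) : ∀ a, c2 0 a G = eps a (VA G) := by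
  refine E_induction (M := fun G => ∀ a, c2 0 a G = eps a (VA G)) ?_ ?_ ?_ ?_ G
  · intro a; rw [map_zero, map_zero, map_zero]
  · intro a; rw [map_one VA, eps, c2_one, c2_one]; simp [and_comm]
  · intro p q hp hq a; rw [map_add, map_add, map_add, hp, hq]
  · intro k p hp a
    rcases k with _ | _ | k
    · rw [c2_X_zero, if_pos rfl, map_mul VA, VA_X_zero, zero_mul, map_zero]
    · rw [map_mul VA, VA_X_succ, zero_add, c2_X_one, eps, c2_X_zero]
      split_ifs
      · rfl
      · rw [hp, eps]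
    · rw [c2_X_ge, map_mul VA, VA_X_succ, eps]
      cases k with
      | zero => rw [zero_add, c2_X_one, if_pos rfl]
      | succ k => rw [show k + 1 + 1 = k + 2 from rfl, c2_X_ge]

/-- `u ⊗ f` -/
def ten (u : P) (f : E →ₗ[ZMod 2] ZMod 2) : F := f.smulRight u

lemma ten_apply (u : P) (f : E →ₗ[ZMod 2] ZMod 2) (G : E) : ten u f G = f G • u := rfl

lemma FS_ten_c2 (u : P) (a b : ℕ) : FS (ten u (c2 a b)) := by
  refine ⟨2, fun k hk G => ?_⟩
  obtain ⟨j, rfl⟩ := Nat.exists_eq_add_of_le hk
  rw [ten_apply, add_comm, c2_X_ge, zero_smul]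

lemma FS_ten_eps (u : P) (a : ℕ) : FS (ten u (eps a)) := FS_ten_c2 u a 0

/-- top coefficient -/
def TD (M : ℕ) (g h : P) : Prop := (∀ m, M < m → Lp m g = 0) ∧ Lp M g = h ^ 2

lemma TD_one : TD 0 1 1 := ⟨fun m hm => by rw [Lp_one, if_neg (by omega)], by rw [Lp_one]; simp⟩

lemma TD_xi (j : ℕ) : TD 1 (xi (j + 1)) (xi j) :=
  ⟨fun m hm => by rw [Lp_xi_succ, if_neg (by omega), if_neg (by omega)],
    by rw [Lp_xi_succ, if_neg (by omega), if_pos rfl]⟩

lemma TD_mul {M M' : ℕ} {g h g' h' : P} (H : TD M g h) (H' : TD M' g' h') :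
    TD (M + M') (g * g') (h * h') := by
  constructor
  · intro m hm
    rw [Lp_mul]
    apply sum_eq_zero
    intro x hx
    rw [mem_antidiagonal] at hx
    rcases Nat.lt_or_ge M x.1 with h1 | h1
    · rw [H.1 _ h1, zero_mul]
    · rw [H'.1 _ (by omega), mul_zero]
  · rw [Lp_mul, sum_eq_single (M, M'), H.2, H'.2, mul_pow]
    · intro x hx hx0
      rw [mem_antidiagonal] at hx
      rcases Nat.lt_or_ge M x.1 with h1 | h1
      · rw [H.1 _ h1, zero_mul]
      · rw [H'.1 _, mul_zero]
        rcases x with ⟨a, b⟩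
        simp only [Prod.mk.injEq, ne_eq] at hx hx0 h1 ⊢
        omega
    · intro h
      exact absurd (by simp) h

lemma TD_pow {M : ℕ} {g h : P} (H : TD M g h) (n : ℕ) : TD (n * M) (g ^ n) (h ^ n) := by
  induction n with
  | zero => simpa using TD_one
  | succ n ih =>
    rw [pow_succ, pow_succ, add_mul, one_mul]
    exact TD_mul ih H

lemma TD_prod {ι : Type*} (S : Finset ι) (M : ι → ℕ) (g h : ι → P)
    (H : ∀ i ∈ S, TD (M i) (g i) (h i)) : TD (∑ i ∈ S, M i) (∏ i ∈ S, g i) (∏ i ∈ S, h i) := by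
  classical
  induction S using Finset.induction_on with
  | empty => simpa using TD_one
  | insert a S ha ih =>
    rw [sum_insert ha, prod_insert ha, prod_insert ha]
    exact TD_mul (H a (mem_insert_self _ _)) (ih fun i hi => H i (mem_insert_of_mem hi))

lemma LL_ten (m : ℕ) (u : P) (f : E →ₗ[ZMod 2] ZMod 2) (G : E) :
    LL m (ten u f) G = ∑ x ∈ antidiagonal m, f (DL x.2 G) • Lp x.1 u := by
  rw [LL_apply]
  refine sum_congr rfl fun x _ => ?_
  rw [ten_apply, ← LpL_apply, map_smul, LpL_apply]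

lemma LL_ten_gt (a M m : ℕ) (u h : P) (H : TD M u h) (hm : M + a < m) (G : E) :
    LL m (ten u (eps a)) G = 0 := by
  rw [LL_ten]
  apply sum_eq_zero
  intro x hx
  rw [mem_antidiagonal] at hx
  rcases Nat.lt_or_ge M x.1 with h1 | h1
  · rw [H.1 _ h1, smul_zero]
  · rw [eps_DL, if_neg (by omega), zero_smul]

lemma LL_ten_top (a M : ℕ) (u h : P) (H : TD M u h) (G : E) :
    LL (M + a) (ten u (eps a)) G = eps a (VA G) • h ^ 2 := by
  rw [LL_ten, sum_eq_single (M, a)]
  · simp only
    rw [H.2, eps_DL, if_pos le_rfl, Nat.sub_self, c2_zero_VA]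
  · intro x hx hx0
    rw [mem_antidiagonal] at hx
    rcases Nat.lt_or_ge M x.1 with h1 | h1
    · rw [H.1 _ h1, smul_zero]
    · rw [eps_DL, if_neg, zero_smul]
      rcases x with ⟨b, c⟩
      simp only [Prod.mk.injEq, ne_eq] at hx hx0 h1 ⊢
      omega
  · intro h
    exact absurd (by simp) h

/-- The explicit chain. -/
theorem case1_core (σ κ n a : ℕ) (hκ : κ ≤ σ) (u h B hB gA : P) (M : ℕ)
    (hu : TD M u h) (hBt : TD κ B hB) (hn : M + a + κ = n + 1) (c c' : ℤ)
    (hc : c = 2 ^ (σ + 1) * n + 1 - (2 ^ (κ + 1) - 1 : ℕ)) (hc' : c' = 2 ^ σ * n + 1 - 2 ^ κ)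
    (hext : (rho (xi (σ + 1) ^ n * u)).coeff (2 ^ (κ + 1) - 1) = xi (σ + 1) ^ n * gA) :
    Eqv (σ + 1) (LL (n + 1) (ten (B * T c u) (eps a)))
      (ten (xi (σ + 1) ^ n * (B * gA)) (eps a) + Ph (ten (hB * T c' h) (eps a))) := by
  intro G
  have hp : ten (B * T c u) (eps a) = ML B ∘ₗ (TL c ∘ₗ ten u (eps a)) := by
    refine LinearMap.ext fun G => ?_
    rw [LinearMap.comp_apply, LinearMap.comp_apply, ML_apply, TL_apply, ten_apply, ten_apply,
      T_smul, mul_smul_comm]
  have hi : 2 ^ (κ + 1) - 1 < 2 ^ (σ + 1) := by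
    have h1 : 2 ^ (κ + 1) ≤ 2 ^ (σ + 1) := Nat.pow_le_pow_right (by norm_num) (by omega)
    have h2 : 0 < 2 ^ (κ + 1) := by positivity
    omega
  have hcc : c = 2 * c' := by
    have h2 : 1 ≤ 2 ^ (κ + 1) := Nat.one_le_two_pow
    rw [hc, hc']
    push_cast [Nat.cast_sub h2]
    ring
  have hL : ∀ m ≤ n + 1, tr (σ + 1) (LL m (TL c ∘ₗ ten u (eps a)) G) =
      tr (σ + 1) (T c (LL m (ten u (eps a)) G)) +
        if m = n + 1 then tr (σ + 1) (eps a G • (xi (σ + 1) ^ n * gA)) else 0 := by
    intro m hm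
    by_cases hmn : m = n + 1
    · rw [if_pos hmn, hmn, tr_LL_T_succ (σ + 1) n (2 ^ (κ + 1) - 1) c hc _ G hi]
      rw [ten_apply, mul_smul_comm, map_smul, Polynomial.coeff_smul, hext]
    · rw [if_neg hmn, add_zero, tr_LL_T]
      have h1 : ((m : ℤ) - 1) ≤ n - 1 := by
        have : (m : ℤ) ≤ n := by exact_mod_cast (by omega : m ≤ n)
        omega
      have h2 : (2 : ℤ) ^ (σ + 1) * ((m : ℤ) - 1) ≤ 2 ^ (σ + 1) * (n - 1) :=
        mul_le_mul_of_nonneg_left h1 (by positivity)
      have h3 : ((2 ^ (κ + 1) - 1 : ℕ) : ℤ) < 2 ^ (σ + 1) := by exact_mod_cast hi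
      rw [hc]
      linarith
  have hmain : ∀ x ∈ antidiagonal (n + 1), tr (σ + 1) (Lp x.1 B *
      LL x.2 (TL c ∘ₗ ten u (eps a)) G) =
      (if x = (κ, M + a) then tr (σ + 1) (hB ^ 2 * T c (eps a (VA G) • h ^ 2)) else 0) +
      (if x = (0, n + 1) then tr (σ + 1) (B * (eps a G • (xi (σ + 1) ^ n * gA))) else 0) := by
    intro x hx
    rw [mem_antidiagonal] at hx
    rw [map_mul, hL x.2 (by omega), mul_add]
    have e1 : tr (σ + 1) (Lp x.1 B) * tr (σ + 1) (T c (LL x.2 (ten u (eps a)) G)) =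
        if x = (κ, M + a) then tr (σ + 1) (hB ^ 2 * T c (eps a (VA G) • h ^ 2)) else 0 := by
      split_ifs with hx1
      · rw [hx1]
        simp only
        rw [hBt.2, LL_ten_top a M u h hu, map_mul]
      · rcases Nat.lt_or_ge κ x.1 with h1 | h1
        · rw [hBt.1 _ h1, map_zero, zero_mul]
        · rw [LL_ten_gt a M x.2 u h hu, T_zero, map_zero, mul_zero]
          rcases x with ⟨b, c⟩
          simp only [Prod.mk.injEq] at hx hx1 h1 ⊢
          omega
    have e2 : tr (σ + 1) (Lp x.1 B) * (if x.2 = n + 1 then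
        tr (σ + 1) (eps a G • (xi (σ + 1) ^ n * gA)) else 0) =
        if x = (0, n + 1) then tr (σ + 1) (B * (eps a G • (xi (σ + 1) ^ n * gA))) else 0 := by
      by_cases hx1 : x.2 = n + 1
      · have hx2 : x = (0, n + 1) := by
          rcases x with ⟨b, c⟩
          simp only [Prod.mk.injEq] at hx hx1 ⊢
          omega
        rw [if_pos hx1, if_pos hx2, hx2, Lp_zero_left, map_mul]
      · rw [if_neg hx1, if_neg, mul_zero]
        intro h
        apply hx1
        rw [h]
    rw [e1, e2]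
  rw [hp, LL_ML, map_sum, sum_congr rfl hmain, sum_add_distrib, sum_ite_eq', sum_ite_eq',
    if_pos (by rw [mem_antidiagonal]; omega), if_pos (by rw [mem_antidiagonal]; omega), add_comm,
    LinearMap.add_apply, map_add, ten_apply, Ph_apply, ten_apply, hcc]
  have e3 : B * (eps a G • (xi (σ + 1) ^ n * gA)) = eps a G • (xi (σ + 1) ^ n * (B * gA)) := by
    rw [mul_smul_comm]
    congr 1
    ring
  have e4 : hB ^ 2 * T (2 * c') (eps a (VA G) • h ^ 2) = (eps a (VA G) • (hB * T c' h)) ^ 2 := by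
    rw [T_smul, T_sq, smul_pow, zmod2_sq, mul_smul_comm, mul_pow]
  rw [e3, e4]

end

end Vale.Agent.P263.H718
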