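import Vale.Agent.P263.H718.Case1

/-!
Monomials with an even exponent are boundaries, up to multiples of `1`.
-/

namespace Vale.Agent.P263.H718

open Finset

noncomputable section

/-- `∏_{j < σ} xi_{j+1}^{γ j}` -/
def mon (σ : ℕ) (γ : ℕ → ℕ) : P := ∏ j ∈ range σ, xi (j + 1) ^ γ j

lemma mon_split (σ κ : ℕ) (hκ : κ ≤ σ) (γ : ℕ → ℕ) :
    mon σ γ = mon κ γ * ∏ j ∈ Ico κ σ, xi (j + 1) ^ γ j := by
  rw [mon, mon, range_eq_Ico, range_eq_Ico, prod_Ico_consecutive _ (Nat.zero_le _) hκ]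

lemma mon_even (κ : ℕ) (γ : ℕ → ℕ) (h : ∀ j < κ, Even (γ j)) :
    mon κ γ = mon κ (fun j => γ j / 2) ^ 2 := by
  rw [mon, mon, ← prod_pow]
  refine prod_congr rfl fun j hj => ?_
  obtain ⟨a, ha⟩ := h j (mem_range.1 hj)
  rw [← pow_mul]
  congr 1
  omega

lemma ext_split (σ κ n : ℕ) (hκ : κ ≤ σ) (γ : ℕ → ℕ) (hγ : ∀ j < κ, Even (γ j))
    (h1 : κ < σ → Even (γ κ)) (h2 : κ = σ → Even n) :
    ∃ e F : P, Hi (κ + 1) F ∧ xi (σ + 1) ^ n * mon σ γ = e ^ 2 * F := by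
  rcases Nat.lt_or_ge κ σ with h | h
  · refine ⟨mon (κ + 1) (fun j => γ j / 2),
      xi (σ + 1) ^ n * ∏ j ∈ Ico (κ + 1) σ, xi (j + 1) ^ γ j, ?_, ?_⟩
    · apply Hi_mul
      · exact Hi_pow (Hi_xi (by omega)) _
      · apply Hi_prod
        intro j hj
        rw [mem_Ico] at hj
        exact Hi_pow (Hi_xi (by omega)) _
    · rw [← mon_even, mon_split σ (κ + 1) h]
      · ring
      · intro j hj
        rcases Nat.lt_or_ge j κ with hj' | hj'
        · exact hγ j hj'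
        · have : j = κ := by omega
          rw [this]
          exact h1 h
  · have hκσ : κ = σ := by omega
    obtain ⟨m, hm⟩ := h2 hκσ
    refine ⟨xi (σ + 1) ^ m * mon σ (fun j => γ j / 2), 1, Hi_one _, ?_⟩
    rw [mul_one, mul_pow, ← mon_even σ γ (by rw [← hκσ]; exact hγ), ← pow_mul]
    congr 2
    omega

lemma ext_coeff (σ κ n : ℕ) (hκ : κ ≤ σ) (γ : ℕ → ℕ) (hγ : ∀ j < κ, Even (γ j))
    (h1 : κ < σ → Even (γ κ)) (h2 : κ = σ → Even n) :
    (rho (xi (σ + 1) ^ n * (xi (κ + 1) * mon σ γ))).coeff (2 ^ (κ + 1) - 1) =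
      xi (σ + 1) ^ n * mon σ γ := by
  obtain ⟨e, F, hF, hE⟩ := ext_split σ κ n hκ γ hγ h1 h2
  rw [hE, show xi (σ + 1) ^ n * (xi (κ + 1) * mon σ γ) = xi (κ + 1) * e ^ 2 * F by
    rw [mul_assoc, ← hE]; ring]
  exact coeff_rho_top (κ + 1) (by omega) e F hF

lemma WB_prod {ι : Type*} (S : Finset ι) (w : ι → ℤ) (f : ι → P) (h : ∀ i ∈ S, WB (w i) (f i)) :
    WB (∑ i ∈ S, w i) (∏ i ∈ S, f i) := by
  classical
  induction S using Finset.induction_on with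
  | empty => rw [sum_empty, prod_empty]; exact WB_one le_rfl
  | insert a S ha ih =>
    rw [sum_insert ha, prod_insert ha]
    exact WB_mul (h a (mem_insert_self _ _)) (ih fun i hi => h i (mem_insert_of_mem hi))

lemma sum_two_pow (κ : ℕ) : ∑ j ∈ range κ, (2 : ℤ) ^ j = 2 ^ κ - 1 := by
  induction κ with
  | zero => simp
  | succ κ ih => rw [sum_range_succ, ih]; ring

/-- reduction of squares to multiples of `1` -/
lemma Bd_of_Ph {s n : ℕ} (hn : Even n) {Q y : F} (hy : FS y)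
    (hw : ∀ G, WB (2 ^ s * n) (tr s (Ph y G))) (h : Bd s n (Q + Ph y)) :
    ∃ f : E →ₗ[ZMod 2] ZMod 2, Bd s n (Q + ten (xi s ^ n) (f ∘ₗ VA.toLinearMap)) := by
  obtain ⟨C, f, hC, _, hwC, hb⟩ := T1 s n hn y hy hw
  refine ⟨f, ?_⟩
  have hle : n ≤ 2 ^ s * n := Nat.le_mul_of_pos_left _ (by positivity)
  have h2 : Bd s n (Ph y + ten (xi s ^ n) (f ∘ₗ VA.toLinearMap)) := by
    refine ⟨2 ^ s * n, by omega, C, hC, hwC, fun G => ?_⟩
    rw [hb, LinearMap.add_apply, mul_add, map_add, ten_apply]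
    rw [mul_smul_comm, ← pow_add, show 2 * (2 ^ s * n) - n + n = 2 * (2 ^ s * n) by omega]
    rw [map_smul, map_pow, tr_xi_le le_rfl]
    rfl
  have h3 := Bd_add h h2
  refine Bd_congr h3 fun G => ?_
  simp only [LinearMap.add_apply]
  rw [add_assoc, ← add_assoc (Ph y G), CharTwo.add_self_eq_zero, zero_add]

theorem case1_Bd (σ κ n a : ℕ) (hκ : κ ≤ σ) (γ : ℕ → ℕ) (hγ : ∀ j < κ, Even (γ j))
    (h1 : κ < σ → Even (γ κ)) (h2 : κ = σ → Even n) (hn : n = a + κ + ∑ j ∈ range σ, γ j)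
    (hn1 : 1 ≤ n) :
    ∃ f : E →ₗ[ZMod 2] ZMod 2, Bd (σ + 1) n
      (ten (mon κ (fun _ => 1) * mon σ γ) (eps a) +
        ten (xi (σ + 1) ^ n) (f ∘ₗ VA.toLinearMap)) := by
  obtain ⟨c, hc⟩ : ∃ c : ℤ, c = 2 ^ (σ + 1) * n + 1 - (2 ^ (κ + 1) - 1 : ℕ) := ⟨_, rfl⟩
  obtain ⟨c', hc'⟩ : ∃ c' : ℤ, c' = 2 ^ σ * n + 1 - 2 ^ κ := ⟨_, rfl⟩
  obtain ⟨h, hh⟩ : ∃ h : P, h = xi κ * ∏ j ∈ range σ, xi j ^ γ j := ⟨_, rfl⟩
  obtain ⟨hB, hhB⟩ : ∃ h : P, h = ∏ j ∈ range κ, xi j := ⟨_, rfl⟩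
  have hu : TD (1 + ∑ j ∈ range σ, γ j) (xi (κ + 1) * mon σ γ) h := by
    rw [hh]
    apply TD_mul (TD_xi κ)
    have := TD_prod (range σ) (fun j => γ j * 1) (fun j => xi (j + 1) ^ γ j)
      (fun j => xi j ^ γ j) (fun j _ => TD_pow (TD_xi j) (γ j))
    simpa [mon] using this
  have hBt : TD κ (mon κ (fun _ => 1)) hB := by
    rw [hhB]
    have := TD_prod (range κ) (fun _ => 1) (fun j => xi (j + 1)) (fun j => xi j)
      (fun j _ => TD_xi j)
    simpa [mon] using this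
  have hcore := case1_core σ κ n a hκ (xi (κ + 1) * mon σ γ) h (mon κ (fun _ => 1)) hB
    (mon σ γ) (1 + ∑ j ∈ range σ, γ j) hu hBt (by omega) c c' hc hc'
    (ext_coeff σ κ n hκ γ hγ h1 h2)
  -- weights
  obtain ⟨Wh, hWh⟩ : ∃ Wh : ℤ, Wh = ∑ j ∈ range σ, (γ j : ℤ) * 2 ^ j := ⟨_, rfl⟩
  have hWu : WB (2 ^ (κ + 1) + 2 * Wh) (xi (κ + 1) * mon σ γ) := by
    apply WB_mul (WB_xi _)
    have := WB_prod (range σ) (fun j => (γ j : ℤ) * 2 ^ (j + 1)) (fun j => xi (j + 1) ^ γ j)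
      (fun j _ => WB_pow (WB_xi (j + 1)) (γ j))
    refine WB_mono (le_of_eq ?_) this
    rw [hWh, mul_sum]
    exact sum_congr rfl fun j _ => by ring
  have hWhh : WB (2 ^ κ + Wh) h := by
    rw [hh, hWh]
    exact WB_mul (WB_xi _) (WB_prod (range σ) (fun j => (γ j : ℤ) * 2 ^ j)
      (fun j => xi j ^ γ j) (fun j _ => WB_pow (WB_xi j) (γ j)))
  have hWB : WB (2 ^ (κ + 1) - 2) (mon κ (fun _ => 1)) := by
    have := WB_prod (range κ) (fun j => (2 : ℤ) ^ (j + 1)) (fun j => xi (j + 1))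
      (fun j _ => WB_xi (j + 1))
    have h3 : ∑ j ∈ range κ, (2 : ℤ) ^ (j + 1) = 2 ^ (κ + 1) - 2 := by
      have h4 := sum_two_pow κ
      have h5 : ∑ j ∈ range κ, (2 : ℤ) ^ (j + 1) = 2 * ∑ j ∈ range κ, (2 : ℤ) ^ j := by
        rw [mul_sum]
        exact sum_congr rfl fun j _ => by ring
      rw [h5, h4]
      ring
    rw [h3] at this
    simpa [mon] using this
  have hWhB : WB (2 ^ κ - 1) hB := by
    have := WB_prod (range κ) (fun j => (2 : ℤ) ^ j) (fun j => xi j) (fun j _ => WB_xi j)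
    rwa [sum_two_pow, ← hhB] at this
  -- the numerical bound
  have hbound : Wh + 2 ^ κ - 1 ≤ 2 ^ σ * n - 2 ^ σ * a ∧ 2 * (Wh + 2 ^ κ - 1) ≤ 2 ^ σ * n := by
    have e1 : 2 * Wh ≤ 2 ^ σ * ∑ j ∈ range σ, (γ j : ℤ) := by
      rw [hWh, mul_sum, mul_sum]
      apply sum_le_sum
      intro j hj
      rw [mem_range] at hj
      have h3 : (2 : ℤ) ^ (j + 1) ≤ 2 ^ σ := pow_le_pow_right₀ (by norm_num) hj
      have h4 : (0 : ℤ) ≤ γ j := by positivity
      calc 2 * ((γ j : ℤ) * 2 ^ j) = γ j * 2 ^ (j + 1) := by ring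
        _ ≤ γ j * 2 ^ σ := mul_le_mul_of_nonneg_left h3 h4
        _ = 2 ^ σ * γ j := by ring
    have e2 : (2 : ℤ) * (2 ^ κ - 1) ≤ 2 ^ σ * κ := by
      rw [← sum_two_pow, mul_sum]
      calc ∑ j ∈ range κ, (2 : ℤ) * 2 ^ j ≤ ∑ j ∈ range κ, (2 : ℤ) ^ σ := by
            apply sum_le_sum
            intro j hj
            rw [mem_range] at hj
            rw [← pow_succ']
            exact pow_le_pow_right₀ (by norm_num) (by omega)
        _ = 2 ^ σ * κ := by rw [sum_const, card_range, nsmul_eq_mul]; ring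
    have e3 : (n : ℤ) = a + κ + ∑ j ∈ range σ, (γ j : ℤ) := by rw [hn]; push_cast; ring
    have e4 : (0 : ℤ) ≤ 2 ^ σ * a := by positivity
    have e5 : (2 : ℤ) ^ σ * n = 2 ^ σ * a + 2 ^ σ * κ + 2 ^ σ * ∑ j ∈ range σ, (γ j : ℤ) := by
      rw [e3]; ring
    have e6 : (0 : ℤ) ≤ Wh := by rw [hWh]; positivity
    have e7 : (1 : ℤ) ≤ 2 ^ κ := one_le_pow₀ (by norm_num)
    constructor <;> linarith
  have hpos : (1 : ℤ) ≤ 2 ^ κ := one_le_pow₀ (by norm_num)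
  have hcz : c = 2 * 2 ^ σ * n + 2 - 2 * 2 ^ κ := by
    have h2 : 1 ≤ 2 ^ (κ + 1) := Nat.one_le_two_pow
    rw [hc]
    push_cast [Nat.cast_sub h2]
    ring
  have hσn : (1 : ℤ) ≤ 2 ^ σ * n := by
    have h3 : (1 : ℤ) ≤ 2 ^ σ := one_le_pow₀ (by norm_num)
    have h4 : (1 : ℤ) ≤ n := by exact_mod_cast hn1
    nlinarith
  have hB1 : Bd (σ + 1) (2 * n) (ten (xi (σ + 1) ^ n * (mon κ (fun _ => 1) * mon σ γ)) (eps a) +
      Ph (ten (hB * T c' h) (eps a))) := by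
    refine ⟨n, le_rfl, ten (mon κ (fun _ => 1) * T c (xi (κ + 1) * mon σ γ)) (eps a),
      FS_ten_eps _ _, fun G => ?_, fun G => ?_⟩
    · rw [ten_apply, map_smul]
      have h3 : WB (2 ^ (σ + 1 + 1) * n) (tr (σ + 1 + 1) (mon κ (fun _ => 1) *
          T c (xi (κ + 1) * mon σ γ))) := by
        rw [map_mul]
        refine WB_mono ?_ (WB_mul (WB_tr _ hWB) (WB_T (σ + 1 + 1) hWu c))
        rw [← max_add_add_left]
        apply max_le
        · rw [hcz]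
          have e1 : (2 : ℤ) ^ (σ + 1 + 1) = 4 * 2 ^ σ := by ring
          have e2 : (2 : ℤ) ^ (κ + 1) = 2 * 2 ^ κ := by ring
          rw [e1, e2]
          nlinarith
        · rw [hcz]
          have e1 : (2 : ℤ) ^ (σ + 1 + 1) = 4 * 2 ^ σ := by ring
          have e2 : (2 : ℤ) ^ (κ + 1) = 2 * 2 ^ κ := by ring
          rw [e1, e2]
          nlinarith [hbound.2]
      rcases C_eq (eps a G) with h4 | h4
      · have h5 : eps a G = 0 := by simpa using h4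
        rw [h5, zero_smul]
        exact WB_zero _
      · have h5 : eps a G = 1 := by
          have := MvPolynomial.C_injective ℕ (ZMod 2) (h4.trans (map_one MvPolynomial.C).symm)
          exact this
        rw [h5, one_smul]
        exact h3
    · rw [show 2 * n - 2 * n = 0 by omega, pow_zero, one_mul]
      exact hcore G
  have hyw : ∀ G, WB (2 ^ (σ + 1) * (2 * n : ℕ)) (tr (σ + 1) (Ph (ten (hB * T c' h) (eps a)) G)) := by
    intro G
    rw [Ph_apply, ten_apply, map_pow, map_smul]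
    have h3 : WB (2 ^ (σ + 1) * n) (tr (σ + 1) (hB * T c' h)) := by
      rw [map_mul]
      refine WB_mono ?_ (WB_mul (WB_tr _ hWhB) (WB_T (σ + 1) hWhh c'))
      rw [← max_add_add_left]
      have e1 : (2 : ℤ) ^ (σ + 1) = 2 * 2 ^ σ := by ring
      rw [e1, hc']
      apply max_le
      · nlinarith
      · nlinarith [hbound.2]
    rcases C_eq (eps a (VA G)) with h4 | h4
    · have h5 : eps a (VA G) = 0 := by simpa using h4
      rw [h5, zero_smul, zero_pow two_ne_zero]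
      exact WB_zero _
    · have h5 : eps a (VA G) = 1 :=
        MvPolynomial.C_injective ℕ (ZMod 2) (h4.trans (map_one MvPolynomial.C).symm)
      rw [h5, one_smul]
      refine WB_mono (le_of_eq ?_) (WB_pow h3 2)
      push_cast
      ring
  obtain ⟨f, hf⟩ := Bd_of_Ph (by simp) (FS_ten_eps _ _) hyw hB1
  refine ⟨f, ?_⟩
  apply Bd_twist n
  rw [← two_mul]
  refine Bd_congr hf fun G => ?_
  simp only [LinearMap.add_apply, LinearMap.comp_apply, ML_apply, ten_apply]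
  rw [mul_add, mul_smul_comm, mul_smul_comm, ← pow_add, two_mul]

end

end Vale.Agent.P263.H718
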