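import Vale.Agent.P263.H718.Fun

/-!
Boundaries of admissible chains, and the basic homotopy for squares.
-/

namespace Vale.Agent.P263.H718

open Finset

noncomputable section

/-- finite index support -/
def FS (p : F) : Prop := ∃ r, ∀ k, r ≤ k → ∀ G, p (MvPolynomial.X k * G) = 0

lemma FS_zero : FS 0 := ⟨0, fun _ _ _ => rfl⟩

lemma FS_add {p q : F} (hp : FS p) (hq : FS q) : FS (p + q) := by
  obtain ⟨r, hr⟩ := hp
  obtain ⟨r', hr'⟩ := hq
  refine ⟨max r r', fun k hk G => ?_⟩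
  rw [LinearMap.add_apply, hr k (le_trans (le_max_left _ _) hk),
    hr' k (le_trans (le_max_right _ _) hk), add_zero]

lemma FS_comp {p : F} (L : P →ₗ[ZMod 2] P) (hp : FS p) : FS (L ∘ₗ p) := by
  obtain ⟨r, hr⟩ := hp
  exact ⟨r, fun k hk G => by rw [LinearMap.comp_apply, hr k hk, map_zero]⟩

lemma FS_LL {p : F} (m : ℕ) (hp : FS p) : FS (LL m p) := by
  obtain ⟨r, hr⟩ := hp
  refine ⟨r + 1, fun k hk G => ?_⟩
  obtain ⟨k, rfl⟩ : ∃ j, k = j + 1 := ⟨k - 1, by omega⟩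
  rw [LL_apply]
  apply sum_eq_zero
  intro x _
  rw [DL_X_succ_mul, map_add, hr (k + 1) (by omega), zero_add]
  split_ifs
  · rw [hr k (by omega), Lp_zero]
  · rw [map_zero, Lp_zero]

lemma FS_Ph {y : F} (hy : FS y) : FS (Ph y) := by
  obtain ⟨r, hr⟩ := hy
  refine ⟨r + 1, fun k hk G => ?_⟩
  obtain ⟨k, rfl⟩ : ∃ j, k = j + 1 := ⟨k - 1, by omega⟩
  rw [Ph_apply, map_mul, VA_X_succ, hr k (by omega), zero_pow two_ne_zero]

/-- the functional Q, with twist n, is the boundary at level s of an admissible chain -/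
def Bd (s n : ℕ) (Q : F) : Prop :=
  ∃ N, n ≤ 2 * N ∧ ∃ p : F, FS p ∧ (∀ G, WB (2 ^ (s + 1) * N) (tr (s + 1) (p G))) ∧
    ∀ G, tr s (LL (N + 1) p G) = tr s (xi s ^ (2 * N - n) * Q G)

lemma Bd_raise {s n : ℕ} {Q : F} (h : Bd s n Q) : ∃ N₀, n ≤ 2 * N₀ ∧ ∀ N, N₀ ≤ N →
    ∃ p : F, FS p ∧ (∀ G, WB (2 ^ (s + 1) * N) (tr (s + 1) (p G))) ∧
    ∀ G, tr s (LL (N + 1) p G) = tr s (xi s ^ (2 * N - n) * Q G) := by
  obtain ⟨N, hN, p, hp, hw, hb⟩ := h
  refine ⟨N, hN, fun M hM => ?_⟩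
  obtain ⟨k, rfl⟩ := Nat.exists_eq_add_of_le hM
  refine ⟨ML (xi (s + 1) ^ k) ∘ₗ p, FS_comp _ hp, fun G => ?_, fun G => ?_⟩
  · rw [LinearMap.comp_apply, ML_apply, map_mul, map_pow, tr_xi_le le_rfl]
    have h1 := WB_mul (WB_pow (WB_xi (s + 1)) k) (hw G)
    refine WB_mono (le_of_eq ?_) h1
    push_cast
    ring
  · rw [show N + k + 1 = (N + 1) + k by ring, tr_LL_xi_pow, map_mul, hb, ← map_mul, ← mul_assoc,
      ← pow_add]
    congr 3
    omega

lemma Bd_add {s n : ℕ} {Q Q' : F} (h : Bd s n Q) (h' : Bd s n Q') : Bd s n (Q + Q') := by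
  obtain ⟨N, hN, H⟩ := Bd_raise h
  obtain ⟨N', hN', H'⟩ := Bd_raise h'
  obtain ⟨p, hp, hw, hb⟩ := H (max N N') (le_max_left _ _)
  obtain ⟨p', hp', hw', hb'⟩ := H' (max N N') (le_max_right _ _)
  refine ⟨max N N', le_trans hN (by have := le_max_left N N'; omega), p + p', FS_add hp hp', fun G => ?_,
    fun G => ?_⟩
  · rw [LinearMap.add_apply, map_add]
    exact WB_add (hw G) (hw' G)
  · rw [LL_add, LinearMap.add_apply, LinearMap.add_apply, map_add, hb, hb', mul_add, map_add]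

lemma Bd_congr {s n : ℕ} {Q Q' : F} (h : Bd s n Q) (hQ : Eqv s Q Q') : Bd s n Q' := by
  obtain ⟨N, hN, p, hp, hw, hb⟩ := h
  refine ⟨N, hN, p, hp, hw, fun G => ?_⟩
  rw [hb, map_mul, hQ, ← map_mul]

lemma Bd_twist {s n : ℕ} {Q : F} (k : ℕ) (h : Bd s (n + k) (ML (xi s ^ k) ∘ₗ Q)) : Bd s n Q := by
  obtain ⟨N, hN, p, hp, hw, hb⟩ := h
  refine ⟨N, by omega, p, hp, hw, fun G => ?_⟩
  rw [hb, LinearMap.comp_apply, ML_apply, ← mul_assoc, ← pow_add]
  congr 3
  omega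

lemma Bd_twist' {s n : ℕ} {Q : F} (k : ℕ) (h : Bd s n Q) : Bd s (n + k) (ML (xi s ^ k) ∘ₗ Q) := by
  obtain ⟨N, hN, H⟩ := Bd_raise h
  obtain ⟨p, hp, hw, hb⟩ := H (N + k) (by omega)
  refine ⟨N + k, by omega, p, hp, hw, fun G => ?_⟩
  rw [hb, LinearMap.comp_apply, ML_apply, ← mul_assoc, ← pow_add]
  congr 3
  omega

lemma d1_sq_mul (e x : P) : d1 (e ^ 2 * x) = e ^ 2 * d1 x := by
  rw [Derivation.leibniz, Derivation.leibniz_pow]
  simp only [smul_eq_mul, nsmul_eq_mul]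
  have : ((2 : ℕ) : P) = 0 := cast_even' (by decide)
  rw [this]
  ring

lemma d1_even_pow_mul (a x : P) (n : ℕ) (hn : Even n) : d1 (a ^ n * x) = a ^ n * d1 x := by
  obtain ⟨k, rfl⟩ := hn
  rw [← two_mul, mul_comm 2 k, pow_mul, d1_sq_mul]

lemma tr_zero (g : P) : tr 0 g = MvPolynomial.C (MvPolynomial.constantCoeff g) := by
  have : (tr 0 : P →ₐ[ZMod 2] P) = MvPolynomial.aeval (0 : ℕ → P) := by
    apply MvPolynomial.algHom_ext
    intro j
    simp [tr]
  rw [this, MvPolynomial.aeval_zero]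
  rfl

lemma zmod2_sq (a : ZMod 2) : a ^ 2 = a := by
  revert a
  decide

/-- the constant coefficient as a linear map -/
def ccL : P →ₗ[ZMod 2] ZMod 2 where
  toFun g := MvPolynomial.constantCoeff g
  map_add' := by intro x y; simp
  map_smul' := by intro r x; simp [MvPolynomial.smul_eq_C_mul]

lemma T_smul (c : ℤ) (a : ZMod 2) (g : P) : T c (a • g) = a • T c g := map_smul (TL c) a g

lemma T_xi_pow_self (s n : ℕ) (c : ℤ) (hc : c = 2 ^ s * n) :
    tr (s + 1) (T c (xi s ^ n)) = xi (s + 1) ^ n := by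
  have h := tr_T_xi_pow s n 0 le_rfl 1
  have h0 : T 0 1 = 1 := by
    rw [T_one, show (0 : ℤ) = ((0 : ℕ) : ℤ) from rfl, pb_nat]
    have h1 := congrArg (PowerSeries.coeff 0) Phi_mul_Pi
    rw [PowerSeries.coeff_mul] at h1
    have h2 : PowerSeries.coeff 0 Phi = 1 := by
      have := phic_pow 0
      simp only [pow_zero, xi_zero] at this
      simp [Phi, this]
    simpa [h2] using h1
  rw [zero_add, mul_one, h0, map_one, mul_one] at h
  rw [hc]
  exact h

/-- The basic homotopy: squares are boundaries up to multiples of `1`. -/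
theorem T1 (s : ℕ) : ∀ n : ℕ, Even n → ∀ y : F, FS y → (∀ G, WB (2 ^ s * n) (tr s (Ph y G))) →
    ∃ (C : F) (f : E →ₗ[ZMod 2] ZMod 2), FS C ∧ (∀ G, d1 (C G) = 0) ∧
      (∀ G, WB (2 ^ (s + 1) * (2 ^ s * n : ℕ)) (tr (s + 1) (C G))) ∧
      ∀ G, tr s (LL (2 ^ s * n + 1) C G) =
        tr s (xi s ^ (2 * (2 ^ s * n) - n) * Ph y G) + f (VA G) • xi s ^ (2 * (2 ^ s * n)) := by
  induction s with
  | zero =>
    intro n _ y _ _
    refine ⟨0, ccL ∘ₗ y, FS_zero, fun G => by simp, fun G => ?_, fun G => ?_⟩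
    · rw [LinearMap.zero_apply, map_zero]
      exact WB_zero _
    · have h1 : LL (2 ^ 0 * n + 1) (0 : F) G = 0 := by
        rw [LL_apply]
        simp [Lp_zero]
      rw [h1, map_zero, Ph_apply, xi_zero, one_pow, one_pow, one_mul, tr_zero, map_pow, zmod2_sq]
      have h2 : (ccL ∘ₗ y) (VA G) • (1 : P) =
          MvPolynomial.C (MvPolynomial.constantCoeff (y (VA G))) := by
        rw [MvPolynomial.smul_eq_C_mul, mul_one]
        rfl
      rw [h2, CharTwo.add_self_eq_zero]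
  | succ s ih =>
    intro n hn y hy hw
    obtain ⟨m, hm⟩ := hn
    have hm2 : n = 2 * m := by omega
    have hLL : LL n (Ph y) = Ph (LL m y) := by rw [hm2, LL_Ph_two_mul]
    have hw' : ∀ G, WB (2 ^ s * ((2 * n : ℕ) : ℤ)) (tr s (Ph (LL m y) G)) := by
      intro G
      rw [← hLL, LL_apply, map_sum]
      apply WB_sum
      intro x _
      rw [← tr_Lp_tr]
      apply WB_tr
      apply WB_Lp
      refine WB_mono (le_of_eq ?_) (hw _)
      push_cast
      ring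
    obtain ⟨C', f, hC', hd, hwC, hC⟩ := ih (2 * n) (by simp) (LL m y) (FS_LL m hy) hw'
    obtain ⟨N, hN⟩ : ∃ N, N = 2 ^ s * (2 * n) := ⟨_, rfl⟩
    have hN' : 2 ^ (s + 1) * n = N := by rw [hN, pow_succ]; ring
    rw [← hN] at hwC hC
    rw [hN']
    have hnN : n ≤ N := by
      rw [← hN']
      exact Nat.le_mul_of_pos_left _ (by positivity)
    have hNe : Even N := by rw [hN]; exact Nat.even_mul.2 (Or.inr (by simp))
    have hNne : Even (N - n) := by
      obtain ⟨a, ha⟩ := hNe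
      exact ⟨a - m, by omega⟩
    obtain ⟨Z, hZ⟩ : ∃ Z : F, Z = ML (xi 1) ∘ₗ Ph y := ⟨_, rfl⟩
    obtain ⟨W, hW⟩ : ∃ W : F, W = ML (xi (s + 1) ^ (N - n)) ∘ₗ Z + C' := ⟨_, rfl⟩
    have hWa : ∀ G, W G = xi (s + 1) ^ (N - n) * (xi 1 * Ph y G) + C' G := by
      intro G
      rw [hW, hZ]
      rfl
    have hd1 : ∀ G, d1 (xi (s + 1) ^ N * W G) = xi (s + 1) ^ (2 * N - n) * Ph y G := by
      intro G
      rw [d1_even_pow_mul _ _ _ hNe, hWa, map_add, hd, add_zero, d1_even_pow_mul _ _ _ hNne,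
        Ph_apply, mul_comm (xi 1), d1_sq_mul, d1_xi, if_pos rfl, mul_one, ← mul_assoc, ← pow_add]
      congr 2
      omega
    have hLW : ∀ G, tr s (LL (N + 1) W G) = tr s (f (VA G) • xi s ^ (2 * N)) := by
      intro G
      rw [hW, LL_add, LinearMap.add_apply, map_add, hC]
      have h1 : N + 1 = (n + 1) + (N - n) := by omega
      have h2 : tr s (LL (N + 1) (ML (xi (s + 1) ^ (N - n)) ∘ₗ Z) G) =
          tr s (xi s ^ (2 * (N - n)) * Ph (LL m y) G) := by
        rw [h1, tr_LL_xi_pow, hZ, LL_xi_one, hLL, LL_Ph_odd (n + 1) ⟨m, by omega⟩]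
        simp
      rw [h2]
      have h3 : 2 * (N - n) = 2 * N - 2 * n := by omega
      rw [h3, ← add_assoc, CharTwo.add_self_eq_zero, zero_add, map_smul, map_pow, tr_xi_le le_rfl]
    obtain ⟨c, hc⟩ : ∃ c : ℤ, c = 2 ^ (s + 1) * N := ⟨_, rfl⟩
    refine ⟨TL c ∘ₗ W, f, ?_, fun G => ?_, fun G => ?_, fun G => ?_⟩
    · apply FS_comp
      rw [hW, hZ]
      exact FS_add (FS_comp _ (FS_comp _ (FS_Ph hy))) hC'
    · rw [LinearMap.comp_apply, TL_apply, d1_T]
      rw [hc, pow_succ]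
      exact Even.mul_right (Even.mul_left (by decide) _) _
    · rw [LinearMap.comp_apply, TL_apply]
      have h1 : tr (s + 1) (W G) = tr (s + 1) (tr (s + 1) (W G)) := (tr_idem _ _).symm
      have hc2 : 2 ≤ c + 2 ^ (s + 1 + 1) := by
        have h4 : (1 : ℤ) ≤ 2 ^ s := one_le_pow₀ (by norm_num)
        have h5 : (2 : ℤ) ^ (s + 1 + 1) = 4 * 2 ^ s := by ring
        have h6 : 0 ≤ c := by rw [hc]; positivity
        omega
      rw [T_congr c hc2 h1]
      have h2 : WB (2 ^ (s + 1) * N + 2) (tr (s + 1) (W G)) := by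
        rw [hWa, map_add, map_mul, map_mul, map_pow, tr_xi_le le_rfl, tr_xi_le (by omega)]
        apply WB_add
        · have h3 := WB_mul (WB_pow (WB_xi (s + 1)) (N - n)) (WB_mul (WB_xi 1) (hw G))
          refine WB_mono (le_of_eq ?_) h3
          push_cast [Nat.cast_sub hnN]
          ring
        · exact WB_mono (by omega) (hwC G)
      have h3 := WB_T (s + 1 + 1) h2 c
      have h4 : max (2 * c) (2 ^ (s + 1) * N + 2 + c - 1) = 2 * c + 1 := by
        rw [← hc]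
        omega
      rw [h4] at h3
      have h5 := WB_even h3 ⟨c, rfl⟩
      refine WB_mono (le_of_eq ?_) h5
      rw [hc]
      ring
    · have h1 := tr_LL_T_succ (s + 1) N 1 c (by rw [hc]; simp) W G
        (Nat.one_lt_two_pow (by omega))
      rw [h1, coeff_one_rho, hd1]
      have hc2 : 2 ≤ c + 2 ^ (s + 1) := by
        have h4 : (1 : ℤ) ≤ 2 ^ s := one_le_pow₀ (by norm_num)
        have h5 : (2 : ℤ) ^ (s + 1) = 2 * 2 ^ s := by ring
        have h6 : 0 ≤ c := by rw [hc]; positivity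
        omega
      rw [T_congr c hc2 (hLW G), T_smul, map_smul, T_xi_pow_self s (2 * N) c (by
        rw [hc]; push_cast; ring), add_comm]

end

end Vale.Agent.P263.H718
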