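import Vale.Agent.P263.H718.Weight
import Mathlib.Algebra.Polynomial.Expand

/-!
Functionals with values in `P` and the twisted coaction.
-/

namespace Vale.Agent.P263.H718

open Finset

noncomputable section

/-- `F_2[eta_0, eta_1, …]` -/
abbrev E := MvPolynomial ℕ (ZMod 2)

/-- `eta_0 ↦ eta_0`, `eta_(k+1) ↦ eta_(k+1) + t^(2^k) eta_k`. -/
def lam : E →ₐ[ZMod 2] Polynomial E :=
  MvPolynomial.aeval fun k => match k with
    | 0 => Polynomial.C (MvPolynomial.X 0)
    | k + 1 => Polynomial.C (MvPolynomial.X (k + 1)) +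
        Polynomial.C (MvPolynomial.X k) * Polynomial.X ^ (2 ^ k)

lemma lam_X_zero : lam (MvPolynomial.X 0) = Polynomial.C (MvPolynomial.X 0) := by simp [lam]
lemma lam_X_succ (k : ℕ) : lam (MvPolynomial.X (k + 1)) = Polynomial.C (MvPolynomial.X (k + 1)) +
        Polynomial.C (MvPolynomial.X k) * Polynomial.X ^ (2 ^ k) := by simp [lam]

/-- the coefficient of `t^j` in `lam G` -/
def DL (j : ℕ) : E →ₗ[ZMod 2] E :=
  ((Polynomial.lcoeff E j).restrictScalars (ZMod 2)) ∘ₗ lam.toLinearMap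

lemma DL_apply (j : ℕ) (G : E) : DL j G = (lam G).coeff j := rfl

lemma DL_mul (j : ℕ) (G H : E) :
    DL j (G * H) = ∑ x ∈ antidiagonal j, DL x.1 G * DL x.2 H := by
  simp only [DL_apply, map_mul, Polynomial.coeff_mul]

lemma DL_zero (G : E) : DL 0 G = G := by
  have h : (Polynomial.constantCoeff (R := E)).comp (lam : E →+* Polynomial E) = RingHom.id E := by
    apply MvPolynomial.ringHom_ext
    · intro r
      simp [Polynomial.constantCoeff]
    · intro j
      cases j with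
      | zero => simp [Polynomial.constantCoeff, lam_X_zero]
      | succ j =>
        have h0 : ¬ (0 = 2 ^ j) := by
          have := Nat.one_le_two_pow (n := j)
          omega
        simp [Polynomial.constantCoeff, lam_X_succ, Polynomial.coeff_X_pow, h0]
  have := RingHom.congr_fun h G
  simpa [DL_apply, Polynomial.constantCoeff] using this

lemma DL_X_zero_mul (j : ℕ) (G : E) : DL j (MvPolynomial.X 0 * G) = MvPolynomial.X 0 * DL j G := by
  rw [DL_apply, map_mul, lam_X_zero, Polynomial.coeff_C_mul, DL_apply]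

lemma DL_X_succ_mul (j k : ℕ) (G : E) : DL j (MvPolynomial.X (k + 1) * G) =
    MvPolynomial.X (k + 1) * DL j G +
      if 2 ^ k ≤ j then MvPolynomial.X k * DL (j - 2 ^ k) G else 0 := by
  rw [DL_apply, map_mul, lam_X_succ, add_mul, Polynomial.coeff_add, Polynomial.coeff_C_mul,
    mul_assoc, Polynomial.coeff_C_mul, Polynomial.coeff_X_pow_mul']
  simp only [DL_apply]
  split_ifs <;> simp

/-- functionals -/
abbrev F := E →ₗ[ZMod 2] P

/-- `Lp` as a linear map -/
def LpL (m : ℕ) : P →ₗ[ZMod 2] P :=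
  ((Polynomial.lcoeff P m).restrictScalars (ZMod 2)) ∘ₗ sig.toLinearMap

lemma LpL_apply (m : ℕ) (g : P) : LpL m g = Lp m g := rfl

/-- the twisted coaction -/
def LL (m : ℕ) (p : F) : F := ∑ x ∈ antidiagonal m, LpL x.1 ∘ₗ p ∘ₗ DL x.2

lemma LL_apply (m : ℕ) (p : F) (G : E) :
    LL m p G = ∑ x ∈ antidiagonal m, Lp x.1 (p (DL x.2 G)) := by
  simp [LL, LpL_apply]

lemma LL_add (m : ℕ) (p q : F) : LL m (p + q) = LL m p + LL m q := by
  refine LinearMap.ext fun G => ?_
  simp only [LL_apply, LinearMap.add_apply, Lp_add, sum_add_distrib]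

/-- congruence modulo `xi_j`, `j > s` -/
def Eqv (s : ℕ) (p q : F) : Prop := ∀ G, tr s (p G) = tr s (q G)

lemma Eqv.symm' {s : ℕ} {p q : F} (h : Eqv s p q) : Eqv s q p := fun G => (h G).symm
lemma Eqv.trans' {s : ℕ} {p q r : F} (h : Eqv s p q) (h' : Eqv s q r) : Eqv s p r :=
  fun G => (h G).trans (h' G)

lemma LL_congr {s : ℕ} (m : ℕ) {p q : F} (h : Eqv (s + 1) p q) : Eqv s (LL m p) (LL m q) := by
  intro G
  rw [LL_apply, LL_apply, map_sum, map_sum]
  exact sum_congr rfl fun x _ => Lp_congr x.1 (h _)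

/-- `T c` as a linear map -/
def TL (c : ℤ) : P →ₗ[ZMod 2] P where
  toFun := T c
  map_add' := T_add c
  map_smul' := by
    intro r g
    have hr : r = 0 ∨ r = 1 := by
      fin_cases r
      · exact Or.inl rfl
      · exact Or.inr rfl
    rcases hr with rfl | rfl
    · simp [T_zero]
    · simp

lemma TL_apply (c : ℤ) (g : P) : TL c g = T c g := rfl

/-- multiplication by a polynomial -/
def ML (a : P) : P →ₗ[ZMod 2] P := LinearMap.mulLeft (ZMod 2) a

lemma ML_apply (a g : P) : ML a g = a * g := rfl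

/-- squaring as a linear map over `F_2` -/
def frobL : P →ₗ[ZMod 2] P where
  toFun g := g ^ 2
  map_add' := fun x y => CharTwo.add_sq x y
  map_smul' := by
    intro r g
    have hr : r = 0 ∨ r = 1 := by
      fin_cases r
      · exact Or.inl rfl
      · exact Or.inr rfl
    rcases hr with rfl | rfl
    · simp
    · simp

lemma frobL_apply (g : P) : frobL g = g ^ 2 := rfl

/-- `eta_0 ↦ 0`, `eta_(k+1) ↦ eta_k`. -/
def VA : E →ₐ[ZMod 2] E :=
  MvPolynomial.aeval fun k => match k with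
    | 0 => 0
    | k + 1 => MvPolynomial.X k

lemma VA_X_zero : VA (MvPolynomial.X 0) = 0 := by simp [VA]
lemma VA_X_succ (k : ℕ) : VA (MvPolynomial.X (k + 1)) = MvPolynomial.X k := by simp [VA]

lemma VA_DL (j : ℕ) (G : E) : VA (DL j G) = if 2 ∣ j then DL (j / 2) (VA G) else 0 := by
  have h : (Polynomial.mapRingHom (VA : E →+* E)).comp (lam : E →+* Polynomial E) =
      ((Polynomial.expand E 2 : Polynomial E →+* Polynomial E).comp
        (lam : E →+* Polynomial E)).comp (VA : E →+* E) := by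
    apply MvPolynomial.ringHom_ext
    · intro r
      simp
    · intro j
      simp only [RingHom.comp_apply, RingHom.coe_coe, Polynomial.coe_mapRingHom]
      cases j with
      | zero => simp [lam_X_zero, VA_X_zero]
      | succ j =>
        rw [lam_X_succ, VA_X_succ]
        cases j with
        | zero => simp [lam_X_zero, VA_X_zero, VA_X_succ]
        | succ j =>
          rw [lam_X_succ]
          simp only [Polynomial.map_add, Polynomial.map_mul, Polynomial.map_C, Polynomial.map_pow,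
            Polynomial.map_X, RingHom.coe_coe, VA_X_succ, map_add, map_mul, map_pow,
            Polynomial.expand_C, Polynomial.expand_X]
          rw [← pow_mul, ← pow_succ']
  have h2 := congrArg (fun f => Polynomial.coeff f j) (RingHom.congr_fun h G)
  simp only [RingHom.comp_apply, RingHom.coe_coe, Polynomial.coe_mapRingHom,
    Polynomial.coeff_map] at h2
  rw [DL_apply, h2, Polynomial.coeff_expand (by norm_num)]
  rfl

/-- the functional `G ↦ y(V G)^2` -/
def Ph (y : F) : F := frobL ∘ₗ y ∘ₗ VA.toLinearMap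

lemma Ph_apply (y : F) (G : E) : Ph y G = y (VA G) ^ 2 := rfl

lemma sum_antidiag_even {M : Type*} [AddCommMonoid M] (g : ℕ → ℕ → M) (n : ℕ) :
    ∑ x ∈ antidiagonal n, (if Even x.1 ∧ Even x.2 then g (x.1 / 2) (x.2 / 2) else 0) =
      if Even n then ∑ x ∈ antidiagonal (n / 2), g x.1 x.2 else 0 := by
  split_ifs with hn
  · obtain ⟨k, rfl⟩ := hn
    have hk : (k + k) / 2 = k := by omega
    rw [hk, ← sum_filter]
    apply Finset.sum_nbij' (fun x => (x.1 / 2, x.2 / 2)) (fun x => (2 * x.1, 2 * x.2))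
    · rintro ⟨a, b⟩ h
      simp only [mem_filter, mem_antidiagonal] at h ⊢
      obtain ⟨h1, ⟨c, hc⟩, ⟨d, hd⟩⟩ := h
      omega
    · rintro ⟨a, b⟩ h
      simp only [mem_filter, mem_antidiagonal] at h ⊢
      exact ⟨by omega, by simp, by simp⟩
    · rintro ⟨a, b⟩ h
      simp only [mem_filter, mem_antidiagonal] at h ⊢
      obtain ⟨h1, ⟨c, hc⟩, ⟨d, hd⟩⟩ := h
      rw [Prod.mk.injEq]
      omega
    · rintro ⟨a, b⟩ _
      rw [Prod.mk.injEq]
      constructor <;> simp
    · rintro ⟨a, b⟩ _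
      rfl
  · apply sum_eq_zero
    rintro ⟨a, b⟩ h
    rw [mem_antidiagonal] at h
    rw [if_neg]
    rintro ⟨h1, h2⟩
    apply hn
    rw [← h]
    exact h1.add h2

lemma LL_Ph (m : ℕ) (y : F) : LL m (Ph y) = if Even m then Ph (LL (m / 2) y) else 0 := by
  refine LinearMap.ext fun G => ?_
  rw [LL_apply]
  have h1 : ∀ x ∈ antidiagonal m, Lp x.1 (Ph y (DL x.2 G)) =
      if Even x.1 ∧ Even x.2 then (Lp (x.1 / 2) (y (DL (x.2 / 2) (VA G)))) ^ 2 else 0 := by
    intro x _
    rw [Ph_apply, VA_DL, Lp_sq]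
    by_cases h1 : Even x.1
    · by_cases h2 : Even x.2
      · rw [if_pos h1, if_pos h2.two_dvd, if_pos ⟨h1, h2⟩]
      · rw [if_pos h1, if_neg (fun h => h2 (even_iff_two_dvd.2 h)), if_neg (fun h => h2 h.2)]
        simp [Lp_zero]
    · rw [if_neg h1, if_neg (fun h => h1 h.1)]
  rw [sum_congr rfl h1,
    sum_antidiag_even (fun i j => (Lp i (y (DL j (VA G)))) ^ 2) m]
  split_ifs
  · rw [Ph_apply, LL_apply, CharTwo.sum_sq]
  · rfl

lemma LL_Ph_two_mul (m : ℕ) (y : F) : LL (2 * m) (Ph y) = Ph (LL m y) := by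
  rw [LL_Ph, if_pos (by simp)]
  congr 2
  omega

lemma LL_Ph_odd (m : ℕ) (hm : Odd m) (y : F) : LL m (Ph y) = 0 := by
  rw [LL_Ph, if_neg (Nat.not_even_iff_odd.2 hm)]

lemma sum_antidiag_assoc {M : Type*} [AddCommMonoid M] (f : ℕ → ℕ → ℕ → M) (m : ℕ) :
    ∑ x ∈ antidiagonal m, ∑ y ∈ antidiagonal x.1, f y.1 y.2 x.2 =
      ∑ x ∈ antidiagonal m, ∑ y ∈ antidiagonal x.2, f x.1 y.1 y.2 := by
  rw [sum_sigma', sum_sigma']
  apply Finset.sum_nbij' (fun p => ⟨(p.2.1, p.2.2 + p.1.2), (p.2.2, p.1.2)⟩)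
    (fun p => ⟨(p.1.1 + p.2.1, p.2.2), (p.1.1, p.2.1)⟩)
  · rintro ⟨⟨a, b⟩, ⟨c, d⟩⟩ h
    simp only [mem_sigma, mem_antidiagonal, and_true] at h ⊢
    omega
  · rintro ⟨⟨a, b⟩, ⟨c, d⟩⟩ h
    simp only [mem_sigma, mem_antidiagonal, and_true] at h ⊢
    omega
  · rintro ⟨⟨a, b⟩, ⟨c, d⟩⟩ h
    simp only [mem_sigma, mem_antidiagonal] at h ⊢
    obtain ⟨h1, h2⟩ := h
    subst h2
    rfl
  · rintro ⟨⟨a, b⟩, ⟨c, d⟩⟩ h
    simp only [mem_sigma, mem_antidiagonal] at h ⊢
    obtain ⟨h1, h2⟩ := h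
    subst h2
    rfl
  · rintro ⟨⟨a, b⟩, ⟨c, d⟩⟩ _
    rfl

/-- `LL` and multiplication -/
lemma LL_ML (m : ℕ) (a : P) (p : F) (G : E) :
    LL m (ML a ∘ₗ p) G = ∑ x ∈ antidiagonal m, Lp x.1 a * LL x.2 p G := by
  simp only [LL_apply, LinearMap.comp_apply, ML_apply, Lp_mul, mul_sum]
  exact sum_antidiag_assoc (fun i j k => Lp i a * Lp j (p (DL k G))) m

/-- multiplication by `xi_1` -/
lemma LL_xi_one (m : ℕ) (p : F) (G : E) :
    LL (m + 1) (ML (xi 1) ∘ₗ p) G = xi 1 * LL (m + 1) p G + LL m p G := by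
  rw [LL_ML, Finset.Nat.sum_antidiagonal_succ]
  simp only [Lp_zero_left]
  congr 1
  have h1 : Lp 1 (xi 1) = 1 := by
    rw [show xi 1 = xi (0 + 1) from rfl, Lp_xi_succ]
    simp
  cases m with
  | zero => simp [h1]
  | succ m =>
    rw [Finset.Nat.sum_antidiagonal_succ, sum_eq_zero, add_zero]
    · rw [zero_add, h1, one_mul]
    · intro x _
      rw [show (1 : ℕ) = 0 + 1 from rfl, Lp_xi_succ, if_neg (by omega), if_neg (by omega), zero_mul]

lemma tr_Lp_xi_pow (s m k : ℕ) :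
    tr s (Lp m (xi (s + 1) ^ k)) = if m = k then xi s ^ (2 * k) else 0 := by
  have h : (sig (xi (s + 1) ^ k)).map (tr s : P →+* P) =
      Polynomial.C (xi s ^ (2 * k)) * Polynomial.X ^ k := by
    rw [map_pow, sig_xi_succ, Polynomial.map_pow, Polynomial.map_add, Polynomial.map_mul,
      Polynomial.map_pow, Polynomial.map_C, Polynomial.map_C, Polynomial.map_X]
    simp only [RingHom.coe_coe]
    rw [tr_xi_gt (by omega), tr_xi_le (le_refl s), map_zero, zero_add, mul_pow, ← pow_mul, mul_comm,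
      map_pow]
  have h2 := congrArg (fun f => Polynomial.coeff f m) h
  simp only [Polynomial.coeff_map, Polynomial.coeff_C_mul, Polynomial.coeff_X_pow,
    RingHom.coe_coe] at h2
  rw [Lp, h2]
  split_ifs <;> simp

/-- changing the twist -/
lemma tr_LL_xi_pow (s m k : ℕ) (p : F) (G : E) :
    tr s (LL (m + k) (ML (xi (s + 1) ^ k) ∘ₗ p) G) = tr s (xi s ^ (2 * k) * LL m p G) := by
  rw [LL_ML, map_sum, sum_eq_single (k, m)]
  · simp only [map_mul]
    rw [tr_Lp_xi_pow, if_pos rfl, map_pow, tr_xi_le le_rfl]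
  · intro x hx hx0
    rw [mem_antidiagonal] at hx
    rw [map_mul, tr_Lp_xi_pow, if_neg, zero_mul]
    rcases x with ⟨a, b⟩
    simp only [Prod.mk.injEq, ne_eq] at hx hx0 ⊢
    omega
  · intro h
    exfalso
    apply h
    rw [mem_antidiagonal]
    exact add_comm _ _

/-- Lemma A for functionals -/
lemma tr_LL_T (s m : ℕ) (c : ℤ) (p : F) (G : E) (h : 2 ^ s * ((m : ℤ) - 1) < c - 1) :
    tr s (LL m (TL c ∘ₗ p) G) = tr s (T c (LL m p G)) := by
  rw [LL_apply, LL_apply, T_sum, map_sum, map_sum]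
  refine sum_congr rfl fun x hx => ?_
  rw [mem_antidiagonal] at hx
  rw [LinearMap.comp_apply, TL_apply, tr_Lp_T]
  refine lt_of_le_of_lt ?_ h
  apply mul_le_mul_of_nonneg_left _ (by positivity)
  have : (x.1 : ℤ) ≤ m := by exact_mod_cast (by omega : x.1 ≤ m)
  omega

/-- Lemma B for functionals -/
lemma tr_LL_T_succ (s n i : ℕ) (c : ℤ) (hc : c = 2 ^ s * n + 1 - i) (p : F) (G : E)
    (hi : i < 2 ^ s) :
    tr s (LL (n + 1) (TL c ∘ₗ p) G) =
      tr s (T c (LL (n + 1) p G)) + tr s ((rho (xi s ^ n * p G)).coeff i) := by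
  have hi' : (i : ℤ) < 2 ^ s := by exact_mod_cast hi
  have hB : ∀ g, tr s (Lp (n + 1) (T c g)) =
      tr s (T c (Lp (n + 1) g)) + tr s ((rho (xi s ^ n * g)).coeff i) := by
    intro g
    rw [hc]
    exact tr_Lp_T_succ s n i g hi
  have hA : ∀ m ≤ n, ∀ g, tr s (Lp m (T c g)) = tr s (T c (Lp m g)) := by
    intro m hm g
    apply tr_Lp_T
    have h1 : ((m : ℤ) - 1) ≤ n - 1 := by
      have : (m : ℤ) ≤ n := by exact_mod_cast hm
      omega
    have h2 : (2 : ℤ) ^ s * ((m : ℤ) - 1) ≤ 2 ^ s * (n - 1) :=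
      mul_le_mul_of_nonneg_left h1 (by positivity)
    rw [hc]
    linarith
  clear hc
  rw [LL_apply, LL_apply, T_sum, map_sum, map_sum, Finset.Nat.sum_antidiagonal_succ',
    Finset.Nat.sum_antidiagonal_succ']
  simp only [LinearMap.comp_apply, TL_apply, DL_zero]
  have h3 : ∑ x ∈ antidiagonal n, tr s (Lp x.1 (T c (p (DL (x.2 + 1) G)))) =
      ∑ x ∈ antidiagonal n, tr s (T c (Lp x.1 (p (DL (x.2 + 1) G)))) := by
    refine sum_congr rfl fun x hx => ?_
    rw [mem_antidiagonal] at hx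
    exact hA x.1 (by omega) _
  rw [hB, add_right_comm, h3]

end

end Vale.Agent.P263.H718
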