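import Vale.Agent.P263.H718.Basic

/-!
The power series `Pi = X / phi(X)`, where `phi(X) = ∑ xi_j X^(2^j)`.
-/

namespace Vale.Agent.P263.H718

open Finset

noncomputable section

lemma sum_antidiag_sq {R : Type*} [CommRing R] [CharP R 2] (f : ℕ → R) (n : ℕ) :
    ∑ x ∈ antidiagonal n, f x.1 * f x.2 = if Even n then f (n / 2) ^ 2 else 0 := by
  classical
  have h1 : ∑ x ∈ (antidiagonal n).filter (fun x => ¬ x.1 = x.2), f x.1 * f x.2 = 0 := by
    apply Finset.sum_involution (fun x _ => x.swap)
    · intro x _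
      simp only [Prod.fst_swap, Prod.snd_swap]
      rw [mul_comm (f x.2)]
      exact CharTwo.add_self_eq_zero _
    · intro x hx _ h
      simp only [mem_filter] at hx
      apply hx.2
      have := congrArg Prod.fst h
      simpa using this.symm
    · intro x _
      simp
    · intro x hx
      simp only [mem_filter, mem_antidiagonal, Prod.fst_swap, Prod.snd_swap] at hx ⊢
      exact ⟨by omega, fun h => hx.2 h.symm⟩
  rw [← Finset.sum_filter_add_sum_filter_not _ (fun x => x.1 = x.2), h1, add_zero]
  split_ifs with hn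
  · obtain ⟨k, rfl⟩ := hn
    have : (antidiagonal (k + k)).filter (fun x => x.1 = x.2) = {(k, k)} := by
      ext ⟨a, b⟩
      simp only [mem_filter, mem_antidiagonal, mem_singleton, Prod.mk.injEq]
      omega
    rw [this, sum_singleton]
    have h2 : (k + k) / 2 = k := by omega
    rw [h2, sq]
  · apply sum_eq_zero
    intro x hx
    simp only [mem_filter, mem_antidiagonal] at hx
    exact absurd ⟨x.2, by omega⟩ hn

/-- coefficients of `phi` -/
def phic (a : ℕ) : P := ∑ j ∈ range (a + 1), if a = 2 ^ j then xi j else 0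

lemma phic_pow (j : ℕ) : phic (2 ^ j) = xi j := by
  rw [phic, sum_eq_single j]
  · simp
  · intro b _ hb
    rw [if_neg]
    intro h
    exact hb (Nat.pow_right_injective le_rfl h).symm
  · intro h
    exfalso
    apply h
    rw [mem_range]
    have := Nat.lt_two_pow_self (n := j)
    omega

lemma phic_eq (a M : ℕ) (h : a < 2 ^ M) :
    phic a = ∑ j ∈ range M, if a = 2 ^ j then xi j else 0 := by
  by_cases ha : ∃ j, a = 2 ^ j
  · obtain ⟨j, rfl⟩ := ha
    rw [phic_pow, sum_eq_single j]
    · simp
    · intro b _ hb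
      rw [if_neg]
      intro h
      exact hb (Nat.pow_right_injective le_rfl h).symm
    · intro hj
      exfalso
      apply hj
      rw [mem_range]
      exact (Nat.pow_lt_pow_iff_right (by norm_num)).1 h
  · push Not at ha
    rw [phic]
    rw [sum_eq_zero (fun j _ => if_neg (ha j)), sum_eq_zero (fun j _ => if_neg (ha j))]

def phi : PowerSeries P := PowerSeries.mk phic
def Phi : PowerSeries P := PowerSeries.mk (fun a => phic (a + 1))

lemma phic_zero : phic 0 = 0 := by simp [phic]

lemma X_mul_Phi : PowerSeries.X * Phi = phi := by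
  ext n
  cases n with
  | zero => simp [phi, phic_zero]
  | succ n => simp [phi, Phi, PowerSeries.coeff_succ_X_mul]

def Pi : PowerSeries P := PowerSeries.invOfUnit Phi 1

lemma Phi_mul_Pi : Phi * Pi = 1 := by
  apply PowerSeries.mul_invOfUnit
  have := phic_pow 0
  simp [Phi] at *
  exact this

lemma phi_mul_Pi : phi * Pi = PowerSeries.X := by
  rw [← X_mul_Phi, mul_assoc, Phi_mul_Pi, mul_one]

lemma coeff_phi_mul (f : PowerSeries P) (n M : ℕ) (h : n < 2 ^ M) :
    PowerSeries.coeff n (phi * f) =
      ∑ j ∈ range M, if 2 ^ j ≤ n then xi j * PowerSeries.coeff (n - 2 ^ j) f else 0 := by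
  rw [PowerSeries.coeff_mul, Finset.Nat.sum_antidiagonal_eq_sum_range_succ_mk]
  have : ∀ k ∈ range (n + 1), PowerSeries.coeff k phi * PowerSeries.coeff (n - k) f =
      ∑ j ∈ range M, if k = 2 ^ j then xi j * PowerSeries.coeff (n - 2 ^ j) f else 0 := by
    intro k hk
    rw [mem_range] at hk
    rw [phi, PowerSeries.coeff_mk, phic_eq k M (by omega), sum_mul]
    refine sum_congr rfl fun j _ => ?_
    split_ifs with hkj
    · rw [hkj]
    · rw [zero_mul]
  rw [sum_congr rfl this, sum_comm]
  refine sum_congr rfl fun j _ => ?_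
  rw [sum_ite_eq']
  simp

/-- the coefficients of `Pi`, extended by zero to negative indices. -/
def pb (k : ℤ) : P := if k < 0 then 0 else PowerSeries.coeff k.toNat Pi

lemma pb_neg (k : ℤ) (h : k < 0) : pb k = 0 := by simp [pb, h]
lemma pb_nat (k : ℕ) : pb k = PowerSeries.coeff k Pi := by simp [pb]

/-- recurrence -/
lemma pb_rec (k : ℤ) (M : ℕ) (h : k + 1 < 2 ^ M) :
    ∑ j ∈ range M, xi j * pb (k + 1 - 2 ^ j) = if k = 0 then 1 else 0 := by
  rcases lt_or_ge k 0 with hk | hk
  · rw [if_neg (by omega)]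
    apply sum_eq_zero
    intro j _
    rw [pb_neg, mul_zero]
    have : (1 : ℤ) ≤ 2 ^ j := one_le_pow₀ (by norm_num)
    omega
  · obtain ⟨n, rfl⟩ := Int.eq_ofNat_of_zero_le hk
    have h1 := coeff_phi_mul Pi (n + 1) M (by exact_mod_cast h)
    rw [phi_mul_Pi, PowerSeries.coeff_X] at h1
    have h2 : (if n + 1 = 1 then (1 : P) else 0) = if (n : ℤ) = 0 then 1 else 0 := by
      congr 1
      simp
    rw [← h2, h1]
    refine sum_congr rfl fun j _ => ?_
    split_ifs with hj
    · have : ((n : ℤ) + 1 - 2 ^ j) = ((n + 1 - 2 ^ j : ℕ) : ℤ) := by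
        push_cast [Nat.cast_sub hj]
        ring
      rw [this, pb_nat]
    · rw [pb_neg, mul_zero]
      push Not at hj
      have : ((n : ℤ) + 1) < 2 ^ j := by exact_mod_cast hj
      omega

lemma ps_two {R : Type*} [CommRing R] [CharP R 2] : (2 : PowerSeries R) = 0 := by
  have h6 : (2 : PowerSeries R) = PowerSeries.C (2 : R) := (map_ofNat _ 2).symm
  rw [h6, CharTwo.two_eq_zero, map_zero]

lemma coeff_sq {R : Type*} [CommRing R] [CharP R 2] (f : PowerSeries R) (n : ℕ) :
    PowerSeries.coeff n (f ^ 2) = if Even n then PowerSeries.coeff (n / 2) f ^ 2 else 0 := by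
  rw [sq, PowerSeries.coeff_mul]
  exact sum_antidiag_sq (fun k => PowerSeries.coeff k f) n

lemma phic_of_not (k : ℕ) (h : ∀ j, k ≠ 2 ^ j) : phic k = 0 := by
  rw [phic]
  exact sum_eq_zero fun j _ => if_neg (h j)

lemma sig_phic (k : ℕ) : sig (phic k) = Polynomial.C (phic k) +
    Polynomial.X * Polynomial.C (PowerSeries.coeff k (phi ^ 2)) := by
  rw [coeff_sq]
  have hphi : PowerSeries.coeff (k / 2) phi = phic (k / 2) := by simp [phi]
  rw [hphi]
  by_cases h : ∃ j, k = 2 ^ j
  · obtain ⟨j, rfl⟩ := h
    rw [phic_pow]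
    cases j with
    | zero => simp
    | succ j =>
      have h2 : 2 ^ (j + 1) / 2 = 2 ^ j := by rw [pow_succ]; omega
      have h3 : Even (2 ^ (j + 1)) := by rw [pow_succ]; exact Nat.even_mul.2 (Or.inr (by decide))
      rw [if_pos h3, h2, phic_pow, sig_xi_succ, map_pow]
  · push Not at h
    rw [phic_of_not k h]
    have : (if Even k then phic (k / 2) ^ 2 else 0) = 0 := by
      split_ifs with he
      · rw [phic_of_not, zero_pow two_ne_zero]
        intro j hj
        apply h (j + 1)
        obtain ⟨c, rfl⟩ := he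
        rw [pow_succ]
        omega
      · rfl
    rw [this]
    simp

/-- the power series with coefficients `Lp m (pbar k)`. -/
def Aser (m : ℕ) : PowerSeries P := PowerSeries.mk fun k => Lp m (PowerSeries.coeff k Pi)

lemma Aser_zero : Aser 0 = Pi := by
  ext k
  simp [Aser, Lp_zero_left]

lemma map_sig_Pi :
    PowerSeries.map (sig : P →+* Polynomial P) Pi =
      PowerSeries.map (Polynomial.C : P →+* Polynomial P) Pi +
      PowerSeries.C (Polynomial.X : Polynomial P) *
        (PowerSeries.map (Polynomial.C : P →+* Polynomial P) phi *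
        PowerSeries.map (sig : P →+* Polynomial P) Pi) := by
  have h1 := congrArg (PowerSeries.map (sig : P →+* Polynomial P)) phi_mul_Pi
  have h0 := congrArg (PowerSeries.map (Polynomial.C : P →+* Polynomial P)) phi_mul_Pi
  rw [map_mul, PowerSeries.map_X] at h1 h0
  have h2 : PowerSeries.map (sig : P →+* Polynomial P) phi =
      PowerSeries.map (Polynomial.C : P →+* Polynomial P) phi +
      PowerSeries.C (Polynomial.X : Polynomial P) *
        (PowerSeries.map (Polynomial.C : P →+* Polynomial P) phi) ^ 2 := by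
    ext1 k
    rw [← map_pow, map_add, PowerSeries.coeff_C_mul, PowerSeries.coeff_map, PowerSeries.coeff_map,
      PowerSeries.coeff_map]
    have : PowerSeries.coeff k phi = phic k := by simp [phi]
    rw [this]
    exact sig_phic k
  have h3 : (PowerSeries.X : PowerSeries (Polynomial P)) *
      PowerSeries.map (sig : P →+* Polynomial P) Pi = PowerSeries.X *
      (PowerSeries.map (Polynomial.C : P →+* Polynomial P) Pi +
      PowerSeries.C (Polynomial.X : Polynomial P) *
        (PowerSeries.map (Polynomial.C : P →+* Polynomial P) phi *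
        PowerSeries.map (sig : P →+* Polynomial P) Pi)) := by
    set a := PowerSeries.map (sig : P →+* Polynomial P) Pi
    set b := PowerSeries.map (Polynomial.C : P →+* Polynomial P) Pi
    set f := PowerSeries.map (Polynomial.C : P →+* Polynomial P) phi
    set t := PowerSeries.C (Polynomial.X : Polynomial P)
    rw [h2] at h1
    have h4 : (PowerSeries.X : PowerSeries (Polynomial P)) * a + t * (PowerSeries.X * (f * a)) =
        PowerSeries.X * b := by
      calc (PowerSeries.X : PowerSeries (Polynomial P)) * a + t * (PowerSeries.X * (f * a))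
          = (f * b) * a + t * ((f * b) * (f * a)) := by rw [h0]
        _ = ((f + t * f ^ 2) * a) * b := by ring
        _ = PowerSeries.X * b := by rw [h1]
    have h5 : t * (PowerSeries.X * (f * a)) + t * (PowerSeries.X * (f * a)) = 0 := by
      rw [← two_mul, ps_two, zero_mul]
    calc (PowerSeries.X : PowerSeries (Polynomial P)) * a
        = (PowerSeries.X * a + t * (PowerSeries.X * (f * a))) + t * (PowerSeries.X * (f * a)) := by
          rw [add_assoc, h5, add_zero]
      _ = PowerSeries.X * (b + t * (f * a)) := by rw [h4]; ring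
  exact mul_left_cancel₀ PowerSeries.X_ne_zero h3

lemma Aser_succ (m : ℕ) : Aser (m + 1) = phi * Aser m := by
  ext1 k
  have h := congrArg (fun f => (PowerSeries.coeff k f).coeff (m + 1)) map_sig_Pi
  simp only [map_add, Polynomial.coeff_add, PowerSeries.coeff_C_mul, PowerSeries.coeff_map,
    Polynomial.coeff_X_mul, Polynomial.coeff_C_succ, zero_add] at h
  rw [PowerSeries.coeff_mul] at h ⊢
  simp only [PowerSeries.coeff_map, Polynomial.finsetSum_coeff, Polynomial.coeff_C_mul] at h
  simp only [Aser, PowerSeries.coeff_mk]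
  exact h

lemma Aser_succ_eq (m : ℕ) : Aser (m + 1) = phi ^ m * PowerSeries.X := by
  induction m with
  | zero => rw [Aser_succ, Aser_zero, phi_mul_Pi]; simp
  | succ m ih => rw [Aser_succ, ih]; ring

lemma Lp_pb_zero (k : ℤ) : Lp 0 (pb k) = pb k := Lp_zero_left _

lemma Lp_pb_succ (m : ℕ) (k : ℤ) :
    Lp (m + 1) (pb k) = if 1 ≤ k then PowerSeries.coeff (k.toNat - 1) (phi ^ m) else 0 := by
  rcases lt_or_ge k 0 with hk | hk
  · rw [pb_neg k hk, if_neg (by omega), Lp_zero]
  · obtain ⟨n, rfl⟩ := Int.eq_ofNat_of_zero_le hk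
    rw [pb_nat]
    have h1 : Lp (m + 1) (PowerSeries.coeff n Pi) = PowerSeries.coeff n (Aser (m + 1)) := by
      simp [Aser]
    rw [h1, Aser_succ_eq]
    cases n with
    | zero => simp
    | succ n =>
      rw [PowerSeries.coeff_succ_mul_X, if_pos (by push_cast; omega)]
      simp

lemma pb_two_mul (k : ℤ) : pb (2 * k) = pb k ^ 2 := by
  rcases lt_or_ge k 0 with hk | hk
  · rw [pb_neg k hk, pb_neg _ (by omega), zero_pow two_ne_zero]
  · obtain ⟨n, rfl⟩ := Int.eq_ofNat_of_zero_le hk
    have h1 : phi * Pi ^ 2 = PowerSeries.X * Pi := by rw [sq, ← mul_assoc, phi_mul_Pi]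
    have h2 := coeff_phi_mul (Pi ^ 2) (2 * n + 1) (2 * n + 2) (by
      have := Nat.lt_two_pow_self (n := 2 * n + 2); omega)
    rw [h1, PowerSeries.coeff_succ_X_mul, sum_range_succ'] at h2
    have h3 : ∑ k ∈ range (2 * n + 1), (if 2 ^ (k + 1) ≤ 2 * n + 1 then
        xi (k + 1) * PowerSeries.coeff (2 * n + 1 - 2 ^ (k + 1)) (Pi ^ 2) else 0) = 0 := by
      apply sum_eq_zero
      intro j _
      split_ifs with hj
      · rw [coeff_sq, if_neg, mul_zero]
        rw [Nat.not_even_iff_odd]
        rw [pow_succ] at hj ⊢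
        exact ⟨n - 2 ^ j, by omega⟩
      · rfl
    rw [h3, zero_add, pow_zero, if_pos (by omega), coeff_sq, if_pos (by simp)] at h2
    have h4 : (2 * (n : ℤ)) = ((2 * n : ℕ) : ℤ) := by push_cast; ring
    rw [h4, pb_nat, pb_nat, h2]
    simp

/-- the derivation `∂/∂xi_1` -/
def d1 : Derivation (ZMod 2) P P := MvPolynomial.pderiv 0

lemma d1_xi (j : ℕ) : d1 (xi j) = if j = 1 then 1 else 0 := by
  cases j with
  | zero => simp
  | succ j =>
    rw [xi_succ, d1, MvPolynomial.pderiv_X]
    by_cases h : j = 0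
    · subst h; simp
    · simp [h]

lemma d1_coeff_Pi (k : ℕ) :
    d1 (PowerSeries.coeff k Pi) = if Odd k then PowerSeries.coeff (k - 1) Pi else 0 := by
  let D : PowerSeries P → PowerSeries P := fun f => PowerSeries.mk fun k => d1 (PowerSeries.coeff k f)
  have hD : ∀ f g, D (f * g) = D f * g + f * D g := by
    intro f g
    ext1 k
    simp only [D, PowerSeries.coeff_mk, map_add, PowerSeries.coeff_mul]
    rw [map_sum, ← sum_add_distrib]
    refine sum_congr rfl fun x _ => ?_
    rw [Derivation.leibniz]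
    simp only [smul_eq_mul]
    ring
  have h1 : D PowerSeries.X = 0 := by
    ext1 k
    simp only [D, PowerSeries.coeff_mk, PowerSeries.coeff_X]
    split_ifs <;> simp
  have h2 : D phi = PowerSeries.X ^ 2 := by
    ext1 k
    simp only [D, PowerSeries.coeff_mk, phi, PowerSeries.coeff_X_pow]
    by_cases h : ∃ j, k = 2 ^ j
    · obtain ⟨j, rfl⟩ := h
      rw [phic_pow, d1_xi]
      by_cases hj : j = 1
      · subst hj; simp
      · rw [if_neg hj, if_neg]
        intro h
        apply hj
        exact Nat.pow_right_injective le_rfl (by simpa using h)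
    · push Not at h
      rw [phic_of_not k h, map_zero, if_neg]
      intro hk
      exact h 1 (by simpa using hk)
  have h3 := hD phi Pi
  rw [phi_mul_Pi, h1, h2] at h3
  have h4 : PowerSeries.X * D Pi = PowerSeries.X * (PowerSeries.X * Pi ^ 2) := by
    have h5 : (PowerSeries.X ^ 2 * Pi + phi * D Pi) * Pi = 0 := by rw [← h3, zero_mul]
    have h6 : (PowerSeries.X ^ 2 * Pi + phi * D Pi) * Pi =
      PowerSeries.X * (PowerSeries.X * Pi ^ 2) + PowerSeries.X * D Pi := by
      rw [← phi_mul_Pi]; ring
    rw [h6] at h5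
    have h7 : (2 : PowerSeries P) = 0 := ps_two
    calc PowerSeries.X * D Pi = PowerSeries.X * D Pi + 0 := by rw [add_zero]
      _ = PowerSeries.X * D Pi + (PowerSeries.X * (PowerSeries.X * Pi ^ 2) +
          PowerSeries.X * D Pi) := by rw [h5]
      _ = PowerSeries.X * (PowerSeries.X * Pi ^ 2) + 2 * (PowerSeries.X * D Pi) := by ring
      _ = _ := by rw [h7]; ring
  have h8 := mul_left_cancel₀ PowerSeries.X_ne_zero h4
  have h9 := congrArg (PowerSeries.coeff k) h8
  simp only [D, PowerSeries.coeff_mk] at h9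
  rw [h9]
  cases k with
  | zero => simp
  | succ k =>
    rw [PowerSeries.coeff_succ_X_mul, coeff_sq]
    by_cases hk : Even k
    · rw [if_pos hk, if_pos hk.add_one]
      obtain ⟨c, rfl⟩ := hk
      have h10 := pb_two_mul c
      have h11 : (2 * (c : ℤ)) = ((2 * c : ℕ) : ℤ) := by push_cast; ring
      rw [h11, pb_nat, pb_nat] at h10
      have h12 : (c + c) / 2 = c := by omega
      have h13 : c + c + 1 - 1 = 2 * c := by omega
      rw [h12, h13, h10]
    · rw [if_neg hk, if_neg]
      rw [Nat.not_odd_iff_even]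
      rw [Nat.not_even_iff_odd] at hk
      exact hk.add_one

lemma d1_pb (k : ℤ) : d1 (pb k) = if Odd k then pb (k - 1) else 0 := by
  rcases lt_or_ge k 0 with hk | hk
  · rw [pb_neg k hk, pb_neg (k - 1) (by omega)]
    simp
  · obtain ⟨n, rfl⟩ := Int.eq_ofNat_of_zero_le hk
    rw [pb_nat, d1_coeff_Pi]
    have h : Odd (n : ℤ) ↔ Odd n := by exact_mod_cast Int.odd_coe_nat n
    by_cases hn : Odd n
    · rw [if_pos hn, if_pos (h.2 hn)]
      have : (n : ℤ) - 1 = ((n - 1 : ℕ) : ℤ) := by
        obtain ⟨c, rfl⟩ := hn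
        push_cast
        simp
      rw [this, pb_nat]
    · rw [if_neg hn, if_neg (fun h' => hn (h.1 h'))]

end

end Vale.Agent.P263.H718
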