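import Vale.Agent.P263.H718.Pbar
import Mathlib.Algebra.Polynomial.Reverse

/-!
The transfer `T c g = ∑_e [Z^e] rho(g) * pbar (c + e)` and its compatibility with the coaction.
-/

namespace Vale.Agent.P263.H718

open Finset

noncomputable section

/-- the functional `Z^e ↦ pbar (c + e)` -/
def Lam (c : ℤ) (f : Polynomial P) : P := f.sum fun e a => a * pb (c + e)

lemma Lam_eq (c : ℤ) (f : Polynomial P) (N : ℕ) (h : f.natDegree < N) :
    Lam c f = ∑ e ∈ range N, f.coeff e * pb (c + e) := by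
  rw [Lam]
  exact Polynomial.sum_over_range' f (fun n => by simp) N h

lemma Lam_add (c : ℤ) (f g : Polynomial P) : Lam c (f + g) = Lam c f + Lam c g := by
  rw [Lam, Lam, Lam]
  exact Polynomial.sum_add_index f g _ (fun i => by simp) (fun a b₁ b₂ => by ring)

lemma Lam_zero (c : ℤ) : Lam c 0 = 0 := by simp [Lam]

lemma Lam_monomial (c : ℤ) (n : ℕ) (a : P) : Lam c (Polynomial.monomial n a) = a * pb (c + n) := by
  rw [Lam, Polynomial.sum_monomial_index _ _ (by simp)]

lemma Lam_sum {ι : Type*} (c : ℤ) (S : Finset ι) (f : ι → Polynomial P) :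
    Lam c (∑ i ∈ S, f i) = ∑ i ∈ S, Lam c (f i) := by
  classical
  induction S using Finset.induction_on with
  | empty => simp [Lam_zero]
  | insert a S ha ih => rw [sum_insert ha, sum_insert ha, Lam_add, ih]

lemma Lam_C_mul_X_pow (c : ℤ) (a : P) (k : ℕ) (f : Polynomial P) :
    Lam c (Polynomial.C a * Polynomial.X ^ k * f) = a * Lam (c + k) f := by
  induction f using Polynomial.induction_on' with
  | add p q hp hq => rw [mul_add, Lam_add, hp, hq, Lam_add, mul_add]
  | monomial n b =>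
    rw [Polynomial.C_mul_X_pow_eq_monomial, Polynomial.monomial_mul_monomial, Lam_monomial,
      Lam_monomial]
    push_cast
    rw [add_assoc, mul_assoc]

/-- the transfer -/
def T (c : ℤ) (g : P) : P := Lam c (rho g)

lemma T_add (c : ℤ) (g h : P) : T c (g + h) = T c g + T c h := by simp [T, Lam_add]
lemma T_zero (c : ℤ) : T c 0 = 0 := by simp [T, Lam_zero]
lemma T_one (c : ℤ) : T c 1 = pb c := by
  have := Lam_monomial c 0 1
  simpa [T] using this
lemma T_sum {ι : Type*} (c : ℤ) (S : Finset ι) (f : ι → P) :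
    T c (∑ i ∈ S, f i) = ∑ i ∈ S, T c (f i) := by simp [T, Lam_sum]

lemma T_xi_mul (c : ℤ) (j : ℕ) (g : P) :
    T c (xi j * g) = ∑ i ∈ range (j + 1), xi i * T (c + 2 ^ j - 2 ^ i) g := by
  rw [T, map_mul, rho_xi, sum_mul, Lam_sum]
  refine sum_congr rfl fun i hi => ?_
  rw [mem_range] at hi
  rw [Lam_C_mul_X_pow, T]
  congr 2
  have : 2 ^ i ≤ 2 ^ j := Nat.pow_le_pow_right (by norm_num) (by omega)
  push_cast [Nat.cast_sub this]
  ring

/-- truncation: `xi_j ↦ 0` for `j > s`. -/
def tr (s : ℕ) : P →ₐ[ZMod 2] P :=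
  MvPolynomial.aeval fun j => if j < s then MvPolynomial.X j else 0

lemma tr_xi (s j : ℕ) : tr s (xi j) = if j ≤ s then xi j else 0 := by
  cases j with
  | zero => simp
  | succ j =>
    simp only [tr, xi_succ, MvPolynomial.aeval_X]
    by_cases h : j < s
    · rw [if_pos h, if_pos (by omega)]
    · rw [if_neg h, if_neg (by omega)]

lemma tr_xi_le {s j : ℕ} (h : j ≤ s) : tr s (xi j) = xi j := by rw [tr_xi, if_pos h]
lemma tr_xi_gt {s j : ℕ} (h : s < j) : tr s (xi j) = 0 := by rw [tr_xi, if_neg (by omega)]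

/-- truncated recurrence -/
lemma tr_pb_rec (s : ℕ) (k : ℤ) :
    ∑ j ∈ range (s + 1), xi j * tr s (pb (k + 1 - 2 ^ j)) = if k = 0 then 1 else 0 := by
  obtain ⟨M, hM1, hM2⟩ : ∃ M : ℕ, s + 1 ≤ M ∧ k + 1 < 2 ^ M := by
    refine ⟨s + 1 + (k.toNat + 1), by omega, ?_⟩
    have h1 : k.toNat + 1 < 2 ^ (s + 1 + (k.toNat + 1)) :=
      lt_of_lt_of_le (Nat.lt_two_pow_self) (Nat.pow_le_pow_right (by norm_num) (by omega))
    have h2 : ((k.toNat + 1 : ℕ) : ℤ) < ((2 ^ (s + 1 + (k.toNat + 1)) : ℕ) : ℤ) := by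
      exact_mod_cast h1
    push_cast at h2
    have h3 := Int.self_le_toNat k
    omega
  have h := congrArg (tr s) (pb_rec k M hM2)
  rw [map_sum] at h
  have h2 : (tr s) (if k = 0 then 1 else 0) = if k = 0 then 1 else 0 := by
    split_ifs <;> simp
  rw [h2] at h
  rw [← h]
  have h3 : range (s + 1) ⊆ range M := range_subset_range.2 hM1
  rw [← sum_subset h3]
  · refine sum_congr rfl fun j hj => ?_
    rw [mem_range] at hj
    rw [map_mul, tr_xi_le (by omega)]
  · intro j _ hj
    rw [mem_range] at hj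
    rw [map_mul, tr_xi_gt (by omega), zero_mul]

/-- the truncated polynomial `phi_s`. -/
def phis (s : ℕ) : Polynomial P := ∑ j ∈ range (s + 1), Polynomial.C (xi j) * Polynomial.X ^ (2 ^ j)

lemma phis_natDegree (s : ℕ) : (phis s).natDegree ≤ 2 ^ s := by
  apply Polynomial.natDegree_sum_le_of_forall_le
  intro j hj
  rw [mem_range] at hj
  refine (Polynomial.natDegree_C_mul_X_pow_le _ _).trans ?_
  exact Nat.pow_le_pow_right (by norm_num) (by omega)

lemma tr_phic (s k : ℕ) : tr s (phic k) = tr s ((phis s).coeff k) := by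
  rw [phis, Polynomial.finsetSum_coeff]
  simp only [Polynomial.coeff_C_mul, Polynomial.coeff_X_pow]
  obtain ⟨M, hM1, hM2⟩ : ∃ M : ℕ, s + 1 ≤ M ∧ k < 2 ^ M :=
    ⟨s + 1 + k, by omega, lt_of_lt_of_le (Nat.lt_two_pow_self)
      (Nat.pow_le_pow_right (by norm_num) (by omega))⟩
  rw [phic_eq k M hM2, map_sum, map_sum]
  have h3 : range (s + 1) ⊆ range M := range_subset_range.2 hM1
  rw [← sum_subset h3]
  · refine sum_congr rfl fun j hj => ?_
    split_ifs <;> simp
  · intro j _ hj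
    rw [mem_range] at hj
    split_ifs
    · rw [tr_xi_gt (by omega)]
    · simp

lemma tr_phi_pow (s n k : ℕ) :
    tr s (PowerSeries.coeff k (phi ^ n)) = tr s ((phis s ^ n).coeff k) := by
  have h1 : PowerSeries.map (tr s : P →+* P) phi =
      PowerSeries.map (tr s : P →+* P) (phis s : PowerSeries P) := by
    ext1 k
    rw [PowerSeries.coeff_map, PowerSeries.coeff_map, Polynomial.coeff_coe]
    have := tr_phic s k
    simpa [phi] using this
  have h2 := congrArg (fun f => PowerSeries.coeff k (f ^ n)) h1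
  simp only [← map_pow, PowerSeries.coeff_map] at h2
  rw [← Polynomial.coe_pow, Polynomial.coeff_coe] at h2
  exact h2

lemma reflect_sum' {ι : Type*} (S : Finset ι) (N : ℕ) (f : ι → Polynomial P) :
    Polynomial.reflect N (∑ i ∈ S, f i) = ∑ i ∈ S, Polynomial.reflect N (f i) := by
  classical
  induction S using Finset.induction_on with
  | empty => simp
  | insert a S ha ih => rw [sum_insert ha, sum_insert ha, Polynomial.reflect_add, ih]

lemma reflect_phis (s : ℕ) : Polynomial.reflect (2 ^ s) (phis s) = rho (xi s) := by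
  rw [phis, reflect_sum', rho_xi]
  refine sum_congr rfl fun j hj => ?_
  rw [mem_range] at hj
  rw [Polynomial.reflect_C_mul_X_pow, Polynomial.revAt_le]
  exact Nat.pow_le_pow_right (by norm_num) (by omega)

lemma reflect_phis_pow (s n : ℕ) :
    Polynomial.reflect (2 ^ s * n) (phis s ^ n) = rho (xi s ^ n) := by
  induction n with
  | zero => simp
  | succ n ih =>
    rw [pow_succ, pow_succ, mul_add, mul_one, Polynomial.reflect_mul _ _ _ (phis_natDegree s), ih,
      reflect_phis, map_mul]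
    refine Polynomial.natDegree_pow_le.trans ?_
    rw [mul_comm]
    exact Nat.mul_le_mul_right _ (phis_natDegree s)

lemma phis_pow_coeff (s n k : ℕ) (h : k ≤ 2 ^ s * n) :
    (phis s ^ n).coeff k = (rho (xi s ^ n)).coeff (2 ^ s * n - k) := by
  rw [← reflect_phis_pow, Polynomial.coeff_reflect, Polynomial.revAt_le (by omega)]
  congr 1
  omega

lemma phis_pow_coeff_gt (s n k : ℕ) (h : 2 ^ s * n < k) :
    (phis s ^ n).coeff k = 0 := by
  apply Polynomial.coeff_eq_zero_of_natDegree_lt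
  refine lt_of_le_of_lt ?_ h
  refine Polynomial.natDegree_pow_le.trans ?_
  rw [mul_comm]
  exact Nat.mul_le_mul_right _ (phis_natDegree s)

lemma rho_natDegree_bound (g : P) (m : ℕ) : ∃ N, ∀ a ≤ m, (rho (Lp a g)).natDegree < N := by
  refine ⟨∑ a ∈ range (m + 1), ((rho (Lp a g)).natDegree + 1), fun a ha => ?_⟩
  have := single_le_sum (f := fun a => (rho (Lp a g)).natDegree + 1) (fun i _ => Nat.zero_le _)
    (mem_range.2 (Nat.lt_succ_of_le ha))
  exact lt_of_lt_of_le (Nat.lt_succ_self _) this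

/-- expansion of `Lp m (T c g)`. -/
lemma Lp_T (m : ℕ) (c : ℤ) (g : P) (N : ℕ) (hN : ∀ a ≤ m, (rho (Lp a g)).natDegree < N) :
    Lp m (T c g) = ∑ x ∈ antidiagonal m, ∑ e ∈ range N,
      (rho (Lp x.1 g)).coeff e * Lp x.2 (pb (c + e)) := by
  have h0 : (rho g).natDegree < N := by
    have := hN 0 (Nat.zero_le _)
    rwa [Lp_zero_left] at this
  rw [T, Lam_eq c _ N h0, Lp_sum, sum_comm]
  refine sum_congr rfl fun e _ => ?_
  rw [Lp_mul]
  refine sum_congr rfl fun x _ => ?_
  rw [Lp_rho]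

lemma tr_Lp_T_aux (s : ℕ) (c : ℤ) (b : ℕ) (hb : 2 ^ s * (b : ℤ) < c - 1) (e : ℕ) :
    tr s (Lp (b + 1) (pb (c + e))) = 0 := by
  rw [Lp_pb_succ]
  split_ifs with h
  · rw [tr_phi_pow, phis_pow_coeff_gt, map_zero]
    have h1 : ((2 ^ s * b : ℕ) : ℤ) < (((c + e).toNat - 1 : ℕ) : ℤ) := by
      have h2 : (((c + e).toNat - 1 : ℕ) : ℤ) = c + e - 1 := by
        have : 1 ≤ (c + e).toNat := by omega
        rw [Nat.cast_sub this, Int.toNat_of_nonneg (by omega)]
        simp
      rw [h2]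
      push_cast
      omega
    exact_mod_cast h1
  · exact map_zero _

/-- Lemma A. -/
lemma tr_Lp_T (s m : ℕ) (c : ℤ) (g : P) (h : 2 ^ s * ((m : ℤ) - 1) < c - 1) :
    tr s (Lp m (T c g)) = tr s (T c (Lp m g)) := by
  obtain ⟨N, hN⟩ := rho_natDegree_bound g m
  rw [Lp_T m c g N hN]
  cases m with
  | zero =>
    rw [T, Lam_eq c (rho (Lp 0 g)) N (hN 0 le_rfl)]
    simp [Lp_pb_zero]
  | succ m =>
    rw [Finset.Nat.sum_antidiagonal_succ']
    rw [map_add]
    have h1 : tr s (∑ x ∈ antidiagonal m, ∑ e ∈ range N,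
        (rho (Lp x.1 g)).coeff e * Lp (x.2 + 1) (pb (c + e))) = 0 := by
      rw [map_sum]
      apply sum_eq_zero
      intro x hx
      rw [mem_antidiagonal] at hx
      rw [map_sum]
      apply sum_eq_zero
      intro e _
      rw [map_mul, tr_Lp_T_aux s c x.2 _ e, mul_zero]
      refine lt_of_le_of_lt ?_ h
      apply mul_le_mul_of_nonneg_left _ (by positivity)
      push_cast
      omega
    simp only at h1 ⊢
    rw [h1, add_zero, T, Lam_eq c (rho (Lp (m + 1) g)) N (hN _ le_rfl)]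
    simp [Lp_pb_zero]

lemma tr_Lp_pb_top (s n i : ℕ) (hi : i < 2 ^ s) (e : ℕ) :
    tr s (Lp (n + 1) (pb ((2 ^ s * n + 1 - i : ℤ) + e))) =
        if e ≤ i then tr s ((rho (xi s ^ n)).coeff (i - e)) else 0 := by
  have hi' : (i : ℤ) < 2 ^ s := by exact_mod_cast hi
  rw [Lp_pb_succ]
  rcases Nat.eq_zero_or_pos n with hn | hn
  · subst hn
    have hr1 : rho 1 = 1 := map_one rho
    rw [pow_zero, pow_zero, hr1, PowerSeries.coeff_one, Polynomial.coeff_one]
    push_cast
    rw [mul_zero, zero_add]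
    by_cases h : e = i
    · subst h
      simp
    · by_cases h' : e ≤ i
      · have h3 : ¬ ((1 : ℤ) ≤ 1 - i + e) := by omega
        have h4 : ¬ (i - e = 0) := by omega
        rw [if_neg h3, if_pos h', if_neg h4]
      · have h3 : ((1 : ℤ) ≤ 1 - i + e) := by omega
        have h4 : ¬ (((1 : ℤ) - i + e).toNat - 1 = 0) := by omega
        rw [if_pos h3, if_neg h', if_neg h4, map_zero]
  · have h5 : (2 : ℤ) ^ s ≤ 2 ^ s * n := by
      have : (1 : ℤ) ≤ n := by exact_mod_cast hn
      nlinarith [pow_pos (show (0 : ℤ) < 2 by norm_num) s]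
    rw [if_pos (by omega), tr_phi_pow]
    have h7 : i ≤ 2 ^ s * n + e := by
      have : ((i : ℕ) : ℤ) ≤ ((2 ^ s * n + e : ℕ) : ℤ) := by push_cast; omega
      exact_mod_cast this
    have h6 : ((2 ^ s * n + 1 - i : ℤ) + e).toNat - 1 = 2 ^ s * n + e - i := by
      have h8 : (2 ^ s * n + 1 - i : ℤ) + e = ((2 ^ s * n + e - i + 1 : ℕ) : ℤ) := by
        push_cast [Nat.cast_sub h7]
        ring
      rw [h8, Int.toNat_natCast]
      omega
    rw [h6]
    split_ifs with h'
    · have h9 : i ≤ 2 ^ s * n := by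
        have : ((i : ℕ) : ℤ) ≤ ((2 ^ s * n : ℕ) : ℤ) := by push_cast; omega
        exact_mod_cast this
      rw [phis_pow_coeff _ _ _ (by omega)]
      congr 2
      omega
    · rw [phis_pow_coeff_gt, map_zero]
      omega

lemma tr_Lp_T_succ_aux (s n i : ℕ) (c : ℤ) (hc : c = 2 ^ s * n + 1 - i) (g : P) (hi : i < 2 ^ s)
    (N : ℕ) (hN : ∀ a ≤ n + 1, (rho (Lp a g)).natDegree < N) (hiN : i < N) :
    tr s (Lp (n + 1) (T c g)) =
      tr s (T c (Lp (n + 1) g)) + tr s ((rho (xi s ^ n * g)).coeff i) := by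
  have htop : ∀ e : ℕ, tr s (Lp (n + 1) (pb (c + e))) =
        if e ≤ i then tr s ((rho (xi s ^ n)).coeff (i - e)) else 0 := by
    intro e
    rw [hc]
    exact tr_Lp_pb_top s n i hi e
  have hbd : ∀ b < n, (2 : ℤ) ^ s * b < c - 1 := by
    intro b hb
    have hi' : (i : ℤ) < 2 ^ s := by exact_mod_cast hi
    have h11 : (2 : ℤ) ^ s * (b + 1) ≤ 2 ^ s * n := by
      apply mul_le_mul_of_nonneg_left _ (by positivity)
      exact_mod_cast hb
    linarith
  clear hc
  have h1 : tr s (∑ e ∈ range N, (rho (Lp (n + 1) g)).coeff e * Lp 0 (pb (c + e))) =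
      tr s (T c (Lp (n + 1) g)) := by
    rw [T, Lam_eq _ _ N (hN _ le_rfl)]
    simp only [Lp_pb_zero]
  have h2 : ∀ x ∈ antidiagonal n, x ≠ (0, n) → tr s (∑ e ∈ range N,
      (rho (Lp x.1 g)).coeff e * Lp (x.2 + 1) (pb (c + e))) = 0 := by
    intro x hx hx0
    rw [mem_antidiagonal] at hx
    have hx2 : x.2 < n := by
      rcases x with ⟨a, b⟩
      simp only [Prod.mk.injEq, ne_eq] at hx hx0 ⊢
      omega
    rw [map_sum]
    apply sum_eq_zero
    intro e _
    rw [map_mul, tr_Lp_T_aux s _ x.2 (hbd _ hx2) e, mul_zero]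
  have h3 : tr s (∑ e ∈ range N, (rho (Lp 0 g)).coeff e * Lp (n + 1) (pb (c + e))) =
      tr s ((rho (xi s ^ n * g)).coeff i) := by
    rw [Lp_zero_left, map_sum, map_mul rho, mul_comm (rho (xi s ^ n)), Polynomial.coeff_mul,
      Finset.Nat.sum_antidiagonal_eq_sum_range_succ_mk, map_sum]
    have h10 : range (i + 1) ⊆ range N := range_subset_range.2 hiN
    rw [← sum_subset h10]
    · refine sum_congr rfl fun e he => ?_
      rw [mem_range] at he
      rw [map_mul, htop, if_pos (by omega), map_mul]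
    · intro e _ he
      rw [mem_range] at he
      rw [map_mul, htop, if_neg (by omega), mul_zero]
  rw [Lp_T (n + 1) c g N hN, Finset.Nat.sum_antidiagonal_succ', map_add, h1, add_comm, map_sum,
    sum_eq_single (0, n) h2 (fun h => absurd (by simp) h), h3, add_comm]

/-- Lemma B. -/
lemma tr_Lp_T_succ (s n i : ℕ) (g : P) (hi : i < 2 ^ s) :
    tr s (Lp (n + 1) (T (2 ^ s * n + 1 - i) g)) =
      tr s (T (2 ^ s * n + 1 - i) (Lp (n + 1) g)) + tr s ((rho (xi s ^ n * g)).coeff i) := by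
  obtain ⟨N', hN'⟩ := rho_natDegree_bound g (n + 1)
  exact tr_Lp_T_succ_aux s n i _ rfl g hi (N' + i + 1) (fun a ha => (hN' a ha).trans (by omega))
    (by omega)

end

end Vale.Agent.P263.H718
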