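import Vale.Agent.P263.H718.Trans

/-!
Kernel, squares, derivation and leading coefficient lemmas for the transfer.
-/

namespace Vale.Agent.P263.H718

open Finset

noncomputable section

lemma tr_T_rec (s : ℕ) (k : ℤ) (h : P) :
    ∑ i ∈ range (s + 1), xi i * tr s (T (k + 1 - 2 ^ i) h) =
      if k ≤ 0 then tr s ((rho h).coeff (-k).toNat) else 0 := by
  obtain ⟨N, hN1, hN2⟩ : ∃ N : ℕ, (rho h).natDegree < N ∧ (-k).toNat < N :=
    ⟨(rho h).natDegree + (-k).toNat + 1, by omega, by omega⟩
  have h1 : ∀ i, tr s (T (k + 1 - 2 ^ i) h) =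
      ∑ e ∈ range N, tr s ((rho h).coeff e) * tr s (pb ((k + e) + 1 - 2 ^ i)) := by
    intro i
    rw [T, Lam_eq _ _ N hN1, map_sum]
    refine sum_congr rfl fun e _ => ?_
    rw [map_mul]
    congr 3
    ring
  simp only [h1, mul_sum]
  rw [sum_comm]
  have h2 : ∀ e ∈ range N, ∑ i ∈ range (s + 1), xi i * (tr s ((rho h).coeff e) *
      tr s (pb ((k + e) + 1 - 2 ^ i))) =
      if k + e = 0 then tr s ((rho h).coeff e) else 0 := by
    intro e _
    have h3 := tr_pb_rec s (k + e)
    calc ∑ i ∈ range (s + 1), xi i * (tr s ((rho h).coeff e) *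
      tr s (pb ((k + e) + 1 - 2 ^ i)))
        = tr s ((rho h).coeff e) * ∑ i ∈ range (s + 1), xi i *
          tr s (pb ((k + e) + 1 - 2 ^ i)) := by
          rw [mul_sum]
          exact sum_congr rfl fun i _ => by ring
      _ = _ := by
        rw [h3]
        split_ifs <;> simp
  rw [sum_congr rfl h2]
  split_ifs with hk
  · rw [sum_eq_single (-k).toNat]
    · rw [if_pos]
      rw [Int.toNat_of_nonneg (by omega)]
      ring
    · intro b _ hb
      rw [if_neg]
      intro h
      apply hb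
      omega
    · intro h
      exact absurd (mem_range.2 hN2) h
  · apply sum_eq_zero
    intro e _
    rw [if_neg]
    omega

/-- kernel lemma -/
lemma tr_T_xi_ge (s l : ℕ) (hl : s ≤ l) (c : ℤ) (hc : 2 ≤ c + 2 ^ s) (h : P) :
    tr s (T c (xi l * h)) = 0 := by
  rw [T_xi_mul, map_sum]
  have h1 := tr_T_rec s (c + 2 ^ l - 1) h
  have hsl : (2 : ℤ) ^ s ≤ 2 ^ l := pow_le_pow_right₀ (by norm_num) hl
  rw [if_neg (by omega)] at h1
  rw [← h1]
  have h3 : range (s + 1) ⊆ range (l + 1) := range_subset_range.2 (by omega)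
  rw [← sum_subset h3]
  · refine sum_congr rfl fun j hj => ?_
    rw [mem_range] at hj
    rw [map_mul, tr_xi_le (by omega)]
    congr 3
    ring
  · intro j _ hj
    rw [mem_range] at hj
    rw [map_mul, tr_xi_gt (by omega), zero_mul]

lemma tr_T_xi_top (s : ℕ) (c : ℤ) (hc : 2 ≤ c + 2 ^ s) (h : P) :
    tr (s + 1) (T c (xi s * h)) = xi (s + 1) * tr (s + 1) (T (c - 2 ^ s) h) := by
  rw [T_xi_mul, map_sum]
  have h1 := tr_T_rec (s + 1) (c + 2 ^ s - 1) h
  rw [if_neg (by omega), sum_range_succ] at h1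
  have h2 : ∑ i ∈ range (s + 1), tr (s + 1) (xi i * T (c + 2 ^ s - 2 ^ i) h) =
      ∑ i ∈ range (s + 1), xi i * tr (s + 1) (T (c + 2 ^ s - 1 + 1 - 2 ^ i) h) := by
    refine sum_congr rfl fun j hj => ?_
    rw [mem_range] at hj
    rw [map_mul, tr_xi_le (by omega)]
    congr 3
    ring
  rw [h2, CharTwo.add_eq_zero.1 h1]
  congr 3
  rw [pow_succ]
  ring

lemma tr_T_xi_pow (s n : ℕ) (c : ℤ) (hc : 0 ≤ c) (h : P) :
    tr (s + 1) (T (c + 2 ^ s * n) (xi s ^ n * h)) = xi (s + 1) ^ n * tr (s + 1) (T c h) := by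
  induction n generalizing c with
  | zero => simp
  | succ n ih =>
    have h1 : xi s ^ (n + 1) * h = xi s * (xi s ^ n * h) := by ring
    have h2 : (1 : ℤ) ≤ 2 ^ s := one_le_pow₀ (by norm_num)
    have h3 : (0 : ℤ) ≤ 2 ^ s * n := by positivity
    rw [h1, tr_T_xi_top]
    · have h4 : c + 2 ^ s * ((n + 1 : ℕ) : ℤ) - 2 ^ s = c + 2 ^ s * n := by push_cast; ring
      rw [h4, ih c hc]
      ring
    · push_cast
      linarith

lemma tr_tr (s : ℕ) (g : P) : tr s (tr (s + 1) g) = tr s g := by
  have : ((tr s).comp (tr (s + 1))) = tr s := by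
    apply MvPolynomial.algHom_ext
    intro j
    have h1 := tr_xi (s + 1) (j + 1)
    rw [xi_succ] at h1
    rw [AlgHom.comp_apply, h1]
    split_ifs with h
    · rfl
    · have h2 := tr_xi_gt (s := s) (j := j + 1) (by omega)
      rw [xi_succ] at h2
      rw [map_zero, h2]
  exact AlgHom.congr_fun this g

lemma tr_idem (s : ℕ) (g : P) : tr s (tr s g) = tr s g := by
  have : ((tr s).comp (tr s)) = tr s := by
    apply MvPolynomial.algHom_ext
    intro j
    have h1 := tr_xi s (j + 1)
    rw [xi_succ] at h1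
    rw [AlgHom.comp_apply, h1]
    split_ifs with h
    · rw [h1, if_pos h]
    · exact map_zero _
  exact AlgHom.congr_fun this g

/-- `Lp` factors through truncation. -/
lemma tr_Lp_tr (s m : ℕ) (g : P) : tr s (Lp m (tr (s + 1) g)) = tr s (Lp m g) := by
  have : ((Polynomial.mapRingHom (tr s : P →+* P)).comp
      ((sig : P →+* Polynomial P).comp (tr (s + 1) : P →+* P))) =
      (Polynomial.mapRingHom (tr s : P →+* P)).comp (sig : P →+* Polynomial P) := by
    apply MvPolynomial.ringHom_ext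
    · intro r
      simp
    · intro j
      have h1 := tr_xi (s + 1) (j + 1)
      rw [xi_succ] at h1
      simp only [RingHom.comp_apply, RingHom.coe_coe]
      rw [h1]
      split_ifs with h
      · rfl
      · rw [map_zero, map_zero, ← xi_succ, sig_xi_succ]
        simp only [Polynomial.coe_mapRingHom, Polynomial.map_add, Polynomial.map_C,
          Polynomial.map_mul, Polynomial.map_pow, Polynomial.map_X, RingHom.coe_coe]
        rw [tr_xi_gt (by omega), tr_xi_gt (by omega)]
        simp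
  have h2 := congrArg (fun f => Polynomial.coeff f m) (RingHom.congr_fun this g)
  simpa [Lp, Polynomial.coeff_map] using h2

lemma Lp_congr {s : ℕ} (m : ℕ) {g h : P} (hgh : tr (s + 1) g = tr (s + 1) h) :
    tr s (Lp m g) = tr s (Lp m h) := by
  rw [← tr_Lp_tr s m g, hgh, tr_Lp_tr]

lemma tr_monomial (s : ℕ) (u : ℕ →₀ ℕ) (a : ZMod 2) (h : ∀ j ∈ u.support, j < s) :
    tr s (MvPolynomial.monomial u a) = MvPolynomial.monomial u a := by
  rw [MvPolynomial.monomial_eq, map_mul, Finsupp.prod, map_prod]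
  have h1 : tr s (MvPolynomial.C a) = MvPolynomial.C a := by
    rw [tr, MvPolynomial.aeval_C]
    rfl
  rw [h1]
  congr 1
  refine prod_congr rfl fun j hj => ?_
  rw [map_pow, ← xi_succ, tr_xi_le (h j hj)]

lemma monomial_split (u : ℕ →₀ ℕ) (a : ZMod 2) (j : ℕ) (hj : j ∈ u.support) :
    (MvPolynomial.monomial u a : P) =
          xi (j + 1) * MvPolynomial.monomial (u - Finsupp.single j 1) a := by
  rw [xi_succ, MvPolynomial.X, MvPolynomial.monomial_mul, one_mul]
  congr 1
  rw [add_comm, tsub_add_cancel_of_le]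
  rw [Finsupp.single_le_iff]
  exact Nat.one_le_iff_ne_zero.2 (Finsupp.mem_support_iff.1 hj)

/-- the transfer factors through truncation -/
lemma tr_T_tr (s : ℕ) (c : ℤ) (hc : 2 ≤ c + 2 ^ (s + 1)) (g : P) :
    tr (s + 1) (T c (tr s g)) = tr (s + 1) (T c g) := by
  induction g using MvPolynomial.induction_on' with
  | monomial u a =>
    by_cases h : ∃ j ∈ u.support, s ≤ j
    · obtain ⟨j, hj, hsj⟩ := h
      rw [monomial_split u a j hj, tr_T_xi_ge (s + 1) (j + 1) (by omega) c hc, map_mul,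
        tr_xi_gt (by omega), zero_mul, T_zero, map_zero]
    · push Not at h
      rw [tr_monomial s u a h]
  | add p q hp hq => rw [map_add, T_add, T_add, map_add, map_add, hp, hq]

lemma T_congr {s : ℕ} (c : ℤ) (hc : 2 ≤ c + 2 ^ (s + 1)) {g h : P} (hgh : tr s g = tr s h) :
    tr (s + 1) (T c g) = tr (s + 1) (T c h) := by
  rw [← tr_T_tr s c hc g, hgh, tr_T_tr s c hc]

lemma Lam_sq (c : ℤ) (f : Polynomial P) : Lam (2 * c) (f ^ 2) = Lam c f ^ 2 := by
  induction f using Polynomial.induction_on' with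
  | add p q hp hq => rw [CharTwo.add_sq, Lam_add, hp, hq, Lam_add, CharTwo.add_sq]
  | monomial n a =>
    rw [Polynomial.monomial_pow, Lam_monomial, Lam_monomial, mul_pow, ← pb_two_mul]
    congr 2
    push_cast
    ring

lemma T_sq (c : ℤ) (g : P) : T (2 * c) (g ^ 2) = T c g ^ 2 := by
  rw [T, map_pow, Lam_sq, T]

lemma Lp_sq (m : ℕ) (g : P) : Lp m (g ^ 2) = if Even m then Lp (m / 2) g ^ 2 else 0 := by
  rw [sq, Lp_mul]
  exact sum_antidiag_sq (fun k => Lp k g) m

lemma Lp_sq_two_mul (m : ℕ) (g : P) : Lp (2 * m) (g ^ 2) = Lp m g ^ 2 := by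
  rw [Lp_sq, if_pos (by simp)]
  congr 2
  omega

lemma Lp_sq_odd (m : ℕ) (g : P) : Lp (2 * m + 1) (g ^ 2) = 0 := by
  rw [Lp_sq, if_neg (by simp)]

lemma coeff_rho_sq (g : P) (e : ℕ) :
    (rho (g ^ 2)).coeff e = if Even e then (rho g).coeff (e / 2) ^ 2 else 0 := by
  rw [map_pow, sq, Polynomial.coeff_mul]
  exact sum_antidiag_sq (fun k => (rho g).coeff k) e

lemma coeff_rho_zero (g : P) : (rho g).coeff 0 = g := by
  have h : (Polynomial.constantCoeff (R := P)).comp (rho : P →+* Polynomial P) =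
      RingHom.id P := by
    apply MvPolynomial.ringHom_ext
    · intro r
      simp [Polynomial.constantCoeff]
    · intro j
      have h1 : (rho (xi (j + 1))).coeff 0 = xi (j + 1) := by
        rw [rho_xi, Polynomial.finsetSum_coeff, sum_range_succ]
        simp only [Nat.sub_self, pow_zero, mul_one, Polynomial.coeff_C_zero]
        rw [sum_eq_zero, zero_add]
        intro i hi
        rw [mem_range] at hi
        rw [Polynomial.coeff_C_mul, Polynomial.coeff_X_pow, if_neg, mul_zero]
        have := Nat.pow_lt_pow_right (a := 2) (by norm_num) hi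
        omega
      simpa [Polynomial.constantCoeff, xi_succ] using h1
  have := RingHom.congr_fun h g
  simpa [Polynomial.constantCoeff] using this

end

end Vale.Agent.P263.H718
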