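import Vale.Agent.P263.H718.Trans2

/-!
The derivation lemma and the coefficients `[Z^(2^k-1)] rho`.
-/

namespace Vale.Agent.P263.H718

open Finset

noncomputable section

lemma cast_even' {R : Type*} [CommRing R] [CharP R 2] {n : ℕ} (h : Even n) : (n : R) = 0 :=
  (CharP.cast_eq_zero_iff R 2 n).2 h.two_dvd

lemma cast_odd' {R : Type*} [CommRing R] [CharP R 2] {n : ℕ} (h : Odd n) : (n : R) = 1 := by
  obtain ⟨k, rfl⟩ := h
  rw [Nat.cast_add, cast_even' (by simp), zero_add, Nat.cast_one]

lemma derivative_rho_xi (j : ℕ) :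
    Polynomial.derivative (rho (xi j)) = if j = 0 then 0 else Polynomial.X ^ (2 ^ j - 2) := by
  cases j with
  | zero => simp
  | succ j =>
    rw [if_neg (by omega), rho_xi, Polynomial.derivative_sum, sum_range_succ', sum_eq_zero]
    · have h : ((2 ^ (j + 1) - 2 ^ 0 : ℕ) : Polynomial P) = 1 := by
        apply cast_odd'
        refine ⟨2 ^ j - 1, ?_⟩
        have := Nat.one_le_two_pow (n := j)
        rw [pow_succ]
        omega
      rw [xi_zero, map_one, one_mul, Polynomial.derivative_X_pow, zero_add, map_natCast, h,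
        one_mul]
      congr 1
    · intro i hi
      rw [mem_range] at hi
      have h : ((2 ^ (j + 1) - 2 ^ (i + 1) : ℕ) : Polynomial P) = 0 := by
        apply cast_even'
        rw [pow_succ, pow_succ, ← Nat.sub_mul]
        exact Nat.even_mul.2 (Or.inr (by decide))
      rw [Polynomial.derivative_C_mul, Polynomial.derivative_X_pow, map_natCast, h, zero_mul,
        mul_zero]

lemma d1_coeff_rho_xi (j e : ℕ) :
    d1 ((rho (xi j)).coeff e) = (Polynomial.derivative (rho (xi j))).coeff e := by
  rw [derivative_rho_xi]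
  cases j with
  | zero =>
    simp only [xi_zero, map_one, Polynomial.coeff_one, if_true, Polynomial.coeff_zero]
    split_ifs <;> simp
  | succ j =>
    rw [if_neg (by omega), rho_xi, Polynomial.finsetSum_coeff, map_sum, Polynomial.coeff_X_pow]
    rw [sum_eq_single 1]
    · rw [Polynomial.coeff_C_mul, Polynomial.coeff_X_pow, pow_one]
      split_ifs
      · rw [mul_one, d1_xi, if_pos rfl]
      · simp
    · intro i _ hi
      rw [Polynomial.coeff_C_mul, Polynomial.coeff_X_pow]
      split_ifs
      · rw [mul_one, d1_xi, if_neg hi]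
      · simp
    · intro h
      simp at h

lemma d1_coeff_rho (g : P) : ∀ e : ℕ,
    d1 ((rho g).coeff e) = (Polynomial.derivative (rho g)).coeff e := by
  induction g using MvPolynomial.induction_on with
  | C r =>
    intro e
    have hr : r = 0 ∨ r = 1 := by
      fin_cases r
      · exact Or.inl rfl
      · exact Or.inr rfl
    rcases hr with rfl | rfl
    · simp
    · have := d1_coeff_rho_xi 0 e
      simpa using this
  | add p q hp hq =>
    intro e
    simp [hp, hq]
  | mul_X p j hp =>
    intro e
    rw [← xi_succ, map_mul, Polynomial.derivative_mul, Polynomial.coeff_add, Polynomial.coeff_mul,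
      Polynomial.coeff_mul, Polynomial.coeff_mul, map_sum, ← sum_add_distrib]
    refine sum_congr rfl fun x _ => ?_
    rw [Derivation.leibniz, hp, d1_coeff_rho_xi]
    simp only [smul_eq_mul]
    ring

lemma Lam_derivative (c : ℤ) (f : Polynomial P) (N : ℕ) (h : f.natDegree < N) :
    Lam c (Polynomial.derivative f) =
      ∑ e ∈ range N, if Odd e then f.coeff e * pb (c + e - 1) else 0 := by
  conv_lhs => rw [Polynomial.as_sum_range' f N h]
  rw [Polynomial.derivative_sum, Lam_sum]
  refine sum_congr rfl fun e _ => ?_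
  rw [Polynomial.derivative_monomial, Lam_monomial]
  split_ifs with he
  · obtain ⟨k, rfl⟩ := he
    have h1 : ((2 * k + 1 : ℕ) : P) = 1 := cast_odd' (by simp)
    rw [h1, mul_one]
    congr 2
    rw [Nat.add_sub_cancel]
    push_cast
    ring
  · rw [Nat.not_odd_iff_even] at he
    obtain ⟨k, rfl⟩ := he
    have h1 : ((k + k : ℕ) : P) = 0 := cast_even' (by simp)
    rw [h1, mul_zero, zero_mul]

/-- for even `c`, `T c g` is killed by `∂/∂xi_1`. -/
lemma d1_T (c : ℤ) (hc : Even c) (g : P) : d1 (T c g) = 0 := by
  obtain ⟨N, hN1, hN2⟩ : ∃ N : ℕ, (rho g).natDegree < N ∧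
      (Polynomial.derivative (rho g)).natDegree < N :=
    ⟨(rho g).natDegree + (Polynomial.derivative (rho g)).natDegree + 1, by omega, by omega⟩
  rw [T, Lam_eq _ _ N hN1, map_sum]
  have h1 : ∀ e ∈ range N, d1 ((rho g).coeff e * pb (c + e)) =
      (Polynomial.derivative (rho g)).coeff e * pb (c + e) +
      if Odd e then (rho g).coeff e * pb (c + e - 1) else 0 := by
    intro e _
    rw [Derivation.leibniz, d1_coeff_rho, d1_pb]
    have h2 : Odd (c + e) ↔ Odd e := by
      rw [Int.odd_add, Int.even_coe_nat]
      constructor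
      · intro h
        rw [← Nat.not_even_iff_odd]
        intro he
        exact (Int.not_odd_iff_even.2 hc) (h.2 he)
      · intro h
        constructor
        · intro h3
          exact absurd hc (Int.not_even_iff_odd.2 h3)
        · intro h3
          exact absurd h3 (Nat.not_even_iff_odd.2 h)
    by_cases he : Odd e
    · rw [if_pos he, if_pos (h2.2 he)]
      simp only [smul_eq_mul]
      ring
    · rw [if_neg he, if_neg (fun h => he (h2.1 h))]
      simp only [smul_eq_mul]
      ring
  rw [sum_congr rfl h1, sum_add_distrib, ← Lam_eq c _ N hN2, Lam_derivative c _ N hN1]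
  exact CharTwo.add_self_eq_zero _

lemma coeff_one_rho (g : P) : (rho g).coeff 1 = d1 g := by
  have := d1_coeff_rho g 0
  rw [coeff_rho_zero, Polynomial.coeff_derivative] at this
  simpa using this.symm

/-- `rho F` is congruent to `F` modulo `Z^(2^k)`. -/
def Hi (k : ℕ) (F : P) : Prop := ∀ a, 0 < a → a < 2 ^ k → (rho F).coeff a = 0

lemma Hi_one (k : ℕ) : Hi k 1 := by
  intro a ha _
  rw [map_one, Polynomial.coeff_one, if_neg (by omega)]

lemma Hi_mul {k : ℕ} {F G : P} (hF : Hi k F) (hG : Hi k G) : Hi k (F * G) := by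
  intro a ha hak
  rw [map_mul, Polynomial.coeff_mul]
  apply sum_eq_zero
  intro x hx
  rw [mem_antidiagonal] at hx
  rcases Nat.eq_zero_or_pos x.1 with h | h
  · rw [hG x.2 (by omega) (by omega), mul_zero]
  · rw [hF x.1 h (by omega), zero_mul]

lemma Hi_pow {k : ℕ} {F : P} (hF : Hi k F) (n : ℕ) : Hi k (F ^ n) := by
  induction n with
  | zero => rw [pow_zero]; exact Hi_one k
  | succ n ih => rw [pow_succ]; exact Hi_mul ih hF

lemma Hi_prod {ι : Type*} {k : ℕ} (S : Finset ι) (f : ι → P) (h : ∀ i ∈ S, Hi k (f i)) :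
    Hi k (∏ i ∈ S, f i) := by
  classical
  induction S using Finset.induction_on with
  | empty => rw [prod_empty]; exact Hi_one k
  | insert a S ha ih =>
    rw [prod_insert ha]
    exact Hi_mul (h a (mem_insert_self _ _)) (ih fun i hi => h i (mem_insert_of_mem hi))

lemma Hi_xi {k j : ℕ} (h : k < j) : Hi k (xi j) := by
  intro a ha hak
  rw [rho_xi, Polynomial.finsetSum_coeff]
  apply sum_eq_zero
  intro i hi
  rw [mem_range] at hi
  rw [Polynomial.coeff_C_mul, Polynomial.coeff_X_pow, if_neg, mul_zero]
  rcases Nat.lt_or_ge i j with h1 | h1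
  · have h2 : 2 ^ i ≤ 2 ^ (j - 1) := Nat.pow_le_pow_right (by norm_num) (by omega)
    have h3 : 2 ^ k ≤ 2 ^ (j - 1) := Nat.pow_le_pow_right (by norm_num) (by omega)
    have h4 : 2 ^ j = 2 ^ (j - 1) * 2 := by rw [← pow_succ]; congr 1; omega
    omega
  · have h2 : i = j := by omega
    subst h2
    omega

/-- the leading coefficient lemma -/
lemma coeff_rho_top (k : ℕ) (hk : 1 ≤ k) (e F : P) (hF : Hi k F) :
    (rho (xi k * e ^ 2 * F)).coeff (2 ^ k - 1) = e ^ 2 * F := by
  have hpos : 0 < 2 ^ k := by positivity
  rw [map_mul, Polynomial.coeff_mul, sum_eq_single (2 ^ k - 1, 0)]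
  · simp only
    rw [coeff_rho_zero]
    congr 1
    rw [map_mul, Polynomial.coeff_mul, sum_eq_single (2 ^ k - 1, 0)]
    · simp only
      rw [coeff_rho_zero, rho_xi, Polynomial.finsetSum_coeff, sum_eq_single 0]
      · simp
      · intro i hi hi0
        rw [mem_range] at hi
        rw [Polynomial.coeff_C_mul, Polynomial.coeff_X_pow, if_neg, mul_zero]
        have h2 : 1 < 2 ^ i := Nat.one_lt_two_pow hi0
        have h3 : 2 ^ i ≤ 2 ^ k := Nat.pow_le_pow_right (by norm_num) (by omega)
        omega
      · intro h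
        simp at h
    · intro x hx hx0
      rw [mem_antidiagonal] at hx
      rw [coeff_rho_sq]
      split_ifs with hev
      · rw [rho_xi, Polynomial.finsetSum_coeff, sum_eq_zero, zero_mul]
        intro i hi
        rw [mem_range] at hi
        rw [Polynomial.coeff_C_mul, Polynomial.coeff_X_pow, if_neg, mul_zero]
        intro h3
        rcases Nat.eq_zero_or_pos i with h4 | h4
        · subst h4
          apply hx0
          rcases x with ⟨a, b⟩
          simp only at hx h3
          rw [Prod.mk.injEq]
          omega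
        · have h5 : 2 ∣ 2 ^ k := dvd_pow_self 2 (by omega)
          have h6 : 2 ∣ 2 ^ i := dvd_pow_self 2 (by omega)
          have h7 : 2 ∣ x.1 := by rw [h3]; exact Nat.dvd_sub h5 h6
          have h8 : 2 ∣ x.2 := hev.two_dvd
          have h9 : 2 ∣ 2 ^ k - 1 := by rw [← hx]; exact dvd_add h7 h8
          omega
      · rw [mul_zero]
    · intro h
      exact absurd (by simp) h
  · intro x hx hx0
    rw [mem_antidiagonal] at hx
    rw [hF x.2, mul_zero]
    · rcases x with ⟨a, b⟩
      simp only [ne_eq, Prod.mk.injEq] at hx hx0 ⊢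
      omega
    · omega
  · intro h
    exact absurd (by simp) h

end

end Vale.Agent.P263.H718
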