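import Vale.Agent.P263.H718.Trans3
import Mathlib.Data.Finsupp.Weight

/-!
The weight filtration (`xi_j` has weight `2^j`, `j ≥ 1`) and its behaviour under the transfer.
-/

namespace Vale.Agent.P263.H718

open Finset

noncomputable section

/-- the weight of a monomial: `xi_j`, `j ≥ 1`, has weight `2^j`. -/
def wt : (ℕ →₀ ℕ) →+ ℕ := Finsupp.weight fun j => 2 ^ (j + 1)

lemma wt_single (j n : ℕ) : wt (Finsupp.single j n) = n * 2 ^ (j + 1) := by
  simp [wt, Finsupp.weight_single]

lemma wt_even (u : ℕ →₀ ℕ) : Even (wt u) := by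
  rw [wt, Finsupp.weight_apply, Finsupp.sum]
  apply Finset.even_sum
  intro j _
  rw [smul_eq_mul, pow_succ]
  exact Nat.even_mul.2 (Or.inr (Nat.even_mul.2 (Or.inr (by decide))))

/-- all monomials of `g` have weight at most `W`. -/
def WB (W : ℤ) (g : P) : Prop := ∀ u ∈ g.support, (wt u : ℤ) ≤ W

lemma WB_zero (W : ℤ) : WB W 0 := by intro u hu; simp at hu

lemma WB_one {W : ℤ} (h : 0 ≤ W) : WB W 1 := by
  intro u hu
  have hu' : u ∈ (MvPolynomial.C (1 : ZMod 2) : P).support := by simpa using hu
  rw [MvPolynomial.mem_support_iff, MvPolynomial.coeff_C] at hu'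
  have : (0 : ℕ →₀ ℕ) = u := by
    by_contra hne
    simp [hne] at hu'
  rw [← this, map_zero]
  exact_mod_cast h

lemma WB_mono {W W' : ℤ} {g : P} (h : W ≤ W') (hg : WB W g) : WB W' g :=
  fun u hu => (hg u hu).trans h

lemma WB_add {W : ℤ} {g h : P} (hg : WB W g) (hh : WB W h) : WB W (g + h) := by
  classical
  intro u hu
  rcases mem_union.1 (MvPolynomial.support_add hu) with h1 | h1
  · exact hg u h1
  · exact hh u h1

lemma WB_sum {ι : Type*} {W : ℤ} (S : Finset ι) (f : ι → P) (h : ∀ i ∈ S, WB W (f i)) :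
    WB W (∑ i ∈ S, f i) := by
  classical
  induction S using Finset.induction_on with
  | empty => rw [sum_empty]; exact WB_zero W
  | insert a S ha ih =>
    rw [sum_insert ha]
    exact WB_add (h a (mem_insert_self _ _)) (ih fun i hi => h i (mem_insert_of_mem hi))

lemma WB_mul {W W' : ℤ} {g h : P} (hg : WB W g) (hh : WB W' h) : WB (W + W') (g * h) := by
  classical
  intro u hu
  obtain ⟨a, ha, b, hb, rfl⟩ := Finset.mem_add.1 (MvPolynomial.support_mul g h hu)
  rw [map_add]
  push_cast
  exact add_le_add (hg a ha) (hh b hb)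

lemma WB_xi_succ (j : ℕ) : WB (2 ^ (j + 1)) (xi (j + 1)) := by
  intro u hu
  rw [xi_succ, MvPolynomial.support_X, mem_singleton] at hu
  rw [hu, wt_single]
  push_cast
  rw [one_mul]

lemma WB_xi (j : ℕ) : WB (2 ^ j) (xi j) := by
  cases j with
  | zero => exact WB_one (by norm_num)
  | succ j => exact WB_xi_succ j

lemma WB_pow {W : ℤ} {g : P} (hg : WB W g) (n : ℕ) : WB (n * W) (g ^ n) := by
  induction n with
  | zero => rw [pow_zero]; exact WB_one (by simp)
  | succ n ih =>
    rw [pow_succ]
    have h := WB_mul ih hg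
    have h2 : (n : ℤ) * W + W = ((n + 1 : ℕ) : ℤ) * W := by push_cast; ring
    rwa [h2] at h

lemma WB_neg {W : ℤ} (hW : W < 0) {g : P} (hg : WB W g) : g = 0 := by
  rw [← MvPolynomial.support_eq_empty, Finset.eq_empty_iff_forall_notMem]
  intro u hu
  have := hg u hu
  omega

lemma WB_even {W : ℤ} {g : P} (hg : WB W g) (h : Odd W) : WB (W - 1) g := by
  intro u hu
  have h1 := hg u hu
  obtain ⟨a, ha⟩ := wt_even u
  obtain ⟨b, hb⟩ := h
  omega

lemma WB_of_mul_X {W : ℤ} {p : P} {j : ℕ} (h : WB W (p * MvPolynomial.X j)) :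
    WB (W - 2 ^ (j + 1)) p := by
  classical
  intro u hu
  have h1 : u + Finsupp.single j 1 ∈ (p * MvPolynomial.X j).support := by
    rw [MvPolynomial.support_mul_X]
    exact Finset.mem_map.2 ⟨u, hu, rfl⟩
  have h2 := h _ h1
  rw [map_add, wt_single] at h2
  push_cast at h2
  linarith

lemma WB_induction {M : ℤ → P → Prop} (hzero : ∀ W, M W 0) (hone : ∀ W, 0 ≤ W → M W 1)
    (hadd : ∀ W p q, M W p → M W q → M W (p + q))
    (hmul : ∀ W p j, 1 ≤ j → M (W - 2 ^ j) p → M W (xi j * p)) :
    ∀ W g, WB W g → M W g := by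
  intro W g hg
  have hmon : ∀ (u : ℕ →₀ ℕ) (a : ZMod 2), ∀ W, WB W (MvPolynomial.monomial u a) →
      M W (MvPolynomial.monomial u a) := by
    intro u a
    refine MvPolynomial.induction_on_monomial
      (motive := fun p => ∀ W, WB W p → M W p) ?_ ?_ u a
    · intro a W hW
      have hr : a = 0 ∨ a = 1 := by
        fin_cases a
        · exact Or.inl rfl
        · exact Or.inr rfl
      rcases hr with rfl | rfl
      · rw [map_zero]; exact hzero W
      · rw [map_one] at hW ⊢
        apply hone
        have h1 : (0 : ℕ →₀ ℕ) ∈ (1 : P).support := by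
          rw [MvPolynomial.mem_support_iff]
          simp
        have := hW 0 h1
        simpa using this
    · intro p j ih W hW
      rw [mul_comm, ← xi_succ]
      exact hmul W p (j + 1) (by omega) (ih _ (WB_of_mul_X hW))
  have h2 : ∀ S : Finset (ℕ →₀ ℕ), S ⊆ g.support →
      M W (∑ u ∈ S, MvPolynomial.monomial u (g.coeff u)) := by
    classical
    intro S
    induction S using Finset.induction_on with
    | empty => intro _; rw [sum_empty]; exact hzero W
    | insert a S ha ih =>
      intro hS
      rw [sum_insert ha]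
      apply hadd
      · apply hmon
        intro u hu
        have h3 := MvPolynomial.support_monomial_subset hu
        rw [mem_singleton] at h3
        rw [h3]
        exact hg a (hS (mem_insert_self _ _))
      · exact ih (fun x hx => hS (mem_insert_of_mem hx))
  have h3 := h2 g.support subset_rfl
  rwa [MvPolynomial.support_sum_monomial_coeff] at h3

lemma WB_tr (s : ℕ) {W : ℤ} {g : P} (hg : WB W g) : WB W (tr s g) := by
  refine WB_induction (M := fun W g => WB W (tr s g)) ?_ ?_ ?_ ?_ W g hg
  · intro W; rw [map_zero]; exact WB_zero W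
  · intro W hW; rw [map_one]; exact WB_one hW
  · intro W p q hp hq; rw [map_add]; exact WB_add hp hq
  · intro W p j _ hp
    rw [map_mul, tr_xi]
    split_ifs
    · have := WB_mul (WB_xi j) hp
      rwa [show (2 : ℤ) ^ j + (W - 2 ^ j) = W by ring] at this
    · rw [zero_mul]; exact WB_zero W

lemma WB_Lp (m : ℕ) {W : ℤ} {g : P} (hg : WB W g) : WB W (Lp m g) := by
  refine WB_induction (M := fun W g => ∀ m, WB W (Lp m g)) ?_ ?_ ?_ ?_ W g hg m
  · intro W m; rw [Lp_zero]; exact WB_zero W
  · intro W hW m; rw [Lp_one]; split_ifs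
    · exact WB_one hW
    · exact WB_zero W
  · intro W p q hp hq m; rw [Lp_add]; exact WB_add (hp m) (hq m)
  · intro W p j hj hp m
    rw [Lp_mul]
    apply WB_sum
    intro x _
    have h1 : WB (2 ^ j) (Lp x.1 (xi j)) := by
      obtain ⟨i, rfl⟩ : ∃ i, j = i + 1 := ⟨j - 1, by omega⟩
      rw [Lp_xi_succ]
      split_ifs
      · exact WB_xi _
      · have h2 := WB_pow (WB_xi i) 2
        have h3 : ((2 : ℕ) : ℤ) * 2 ^ i = 2 ^ (i + 1) := by push_cast; ring
        rwa [h3] at h2
      · exact WB_zero _
    have := WB_mul h1 (hp x.2)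
    rwa [show (2 : ℤ) ^ j + (W - 2 ^ j) = W by ring] at this

lemma WB_coeff_rho {W : ℤ} {g : P} (hg : WB W g) (e : ℕ) : WB (W - e) ((rho g).coeff e) := by
  refine WB_induction (M := fun W g => ∀ e : ℕ, WB (W - e) ((rho g).coeff e)) ?_ ?_ ?_ ?_ W g hg e
  · intro W e; rw [map_zero, Polynomial.coeff_zero]; exact WB_zero _
  · intro W hW e; rw [map_one, Polynomial.coeff_one]; split_ifs with h
    · subst h
      apply WB_one
      simpa using hW
    · exact WB_zero _
  · intro W p q hp hq e; rw [map_add, Polynomial.coeff_add]; exact WB_add (hp e) (hq e)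
  · intro W p j hj hp e
    rw [map_mul, Polynomial.coeff_mul]
    apply WB_sum
    intro x hx
    rw [mem_antidiagonal] at hx
    have h1 : WB (2 ^ j - x.1) ((rho (xi j)).coeff x.1) := by
      rw [rho_xi, Polynomial.finsetSum_coeff]
      apply WB_sum
      intro i hi
      rw [mem_range] at hi
      rw [Polynomial.coeff_C_mul, Polynomial.coeff_X_pow]
      split_ifs with h2
      · rw [mul_one]
        have h3 : 2 ^ i ≤ 2 ^ j := Nat.pow_le_pow_right (by norm_num) (by omega)
        have h4 : (2 : ℤ) ^ j - x.1 = 2 ^ i := by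
          rw [h2]
          push_cast [Nat.cast_sub h3]
          ring
        rw [h4]
        exact WB_xi i
      · rw [mul_zero]; exact WB_zero _
    have := WB_mul h1 (hp x.2)
    have h5 : (2 : ℤ) ^ j - x.1 + (W - 2 ^ j - x.2) = W - e := by
      rw [← hx]; push_cast; ring
    rwa [h5] at this

lemma WB_pb (k : ℤ) : WB (2 * k) (pb k) := by
  rcases lt_or_ge k 0 with hk | hk
  · rw [pb_neg k hk]; exact WB_zero _
  obtain ⟨n, rfl⟩ := Int.eq_ofNat_of_zero_le hk
  clear hk
  induction n using Nat.strong_induction_on with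
  | _ n ih =>
    have h1 := pb_rec n (n + 2) (by
      have h0 := Nat.lt_two_pow_self (n := n + 2)
      have h2 : ((n + 2 : ℕ) : ℤ) < ((2 ^ (n + 2) : ℕ) : ℤ) := by exact_mod_cast h0
      push_cast at h2
      omega)
    rw [sum_range_succ'] at h1
    simp only [xi_zero, one_mul, pow_zero, add_sub_cancel_right] at h1
    have h2 : pb n = (∑ k ∈ range (n + 1), xi (k + 1) * pb (n + 1 - 2 ^ (k + 1))) +
        if (n : ℤ) = 0 then 1 else 0 := by
      rw [← h1, ← add_assoc, CharTwo.add_self_eq_zero, zero_add]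
    rw [h2]
    apply WB_add
    · apply WB_sum
      intro j _
      rcases lt_or_ge ((n : ℤ) + 1 - 2 ^ (j + 1)) 0 with h3 | h3
      · rw [pb_neg _ h3, mul_zero]; exact WB_zero _
      · obtain ⟨m, hm⟩ := Int.eq_ofNat_of_zero_le h3
        have h4 : (2 : ℤ) ≤ 2 ^ (j + 1) := by
          rw [pow_succ]
          have : (1 : ℤ) ≤ 2 ^ j := one_le_pow₀ (by norm_num)
          omega
        have h5 := WB_mul (WB_xi (j + 1)) (ih m (by omega))
        rw [hm]
        refine WB_mono ?_ h5
        rw [← hm]
        linarith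
    · split_ifs with h3
      · exact WB_one (by omega)
      · exact WB_zero _

/-- The weight bound for the transfer. -/
lemma WB_T (s : ℕ) {W : ℤ} {g : P} (hg : WB W g) (c : ℤ) :
    WB (max (2 * c) (W + c - 1)) (tr s (T c g)) := by
  refine (WB_induction (M := fun W g => WB W g ∧
    ∀ c : ℤ, WB (max (2 * c) (W + c - 1)) (tr s (T c g))) ?_ ?_ ?_ ?_ W g hg).2 c
  · intro W
    exact ⟨WB_zero _, fun c => by rw [T_zero, map_zero]; exact WB_zero _⟩
  · intro W hW
    refine ⟨WB_one hW, fun c => ?_⟩
    rw [T_one]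
    exact WB_mono (le_max_left _ _) (WB_tr s (WB_pb c))
  · intro W p q hp hq
    exact ⟨WB_add hp.1 hq.1, fun c => by rw [T_add, map_add]; exact WB_add (hp.2 c) (hq.2 c)⟩
  · intro W p j hj hp'
    obtain ⟨hWp, hp⟩ := hp'
    refine ⟨?_, fun c => ?_⟩
    · have := WB_mul (WB_xi j) hWp
      rwa [show (2 : ℤ) ^ j + (W - 2 ^ j) = W by ring] at this
    -- `T_c(xi_j p)` in terms of higher `xi`
    have hrec := tr_T_rec s (c + 2 ^ j - 1) p
    have hA : ∀ i, T (c + 2 ^ j - 1 + 1 - 2 ^ i) p = T (c + 2 ^ j - 2 ^ i) p := by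
      intro i; congr 1; ring
    simp only [hA] at hrec
    -- boundary term
    have hB : WB (W + c - 1) (∑ i ∈ range (s + 1), xi i * tr s (T (c + 2 ^ j - 2 ^ i) p)) →
        WB (max (2 * c) (W + c - 1)) (tr s (T c (xi j * p))) := by
      intro hB
      rw [T_xi_mul, map_sum]
      rcases Nat.lt_or_ge s j with hsj | hsj
      · have h3 : range (s + 1) ⊆ range (j + 1) := range_subset_range.2 (by omega)
        rw [← sum_subset h3]
        · refine WB_mono (le_max_right _ _) ?_
          convert hB using 1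
          refine sum_congr rfl fun i hi => ?_
          rw [mem_range] at hi
          rw [map_mul, tr_xi_le (by omega)]
        · intro i _ hi
          rw [mem_range] at hi
          rw [map_mul, tr_xi_gt (by omega), zero_mul]
      · have h3 : range (j + 1) ⊆ range (s + 1) := range_subset_range.2 (by omega)
        have h4 : ∑ i ∈ range (j + 1), tr s (xi i * T (c + 2 ^ j - 2 ^ i) p) =
            (∑ i ∈ range (s + 1), xi i * tr s (T (c + 2 ^ j - 2 ^ i) p)) +
            ∑ i ∈ range (s + 1) \ range (j + 1), xi i * tr s (T (c + 2 ^ j - 2 ^ i) p) := by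
          rw [← sum_sdiff h3, add_comm (∑ i ∈ range (s + 1) \ range (j + 1), _), add_assoc,
            CharTwo.add_self_eq_zero, add_zero]
          refine sum_congr rfl fun i hi => ?_
          rw [mem_range] at hi
          rw [map_mul, tr_xi_le (by omega)]
        rw [h4]
        apply WB_add
        · exact WB_mono (le_max_right _ _) hB
        · apply WB_sum
          intro i hi
          rw [mem_sdiff, mem_range, mem_range] at hi
          have h5 := WB_mul (WB_xi i) (hp (c + 2 ^ j - 2 ^ i))
          refine WB_mono ?_ h5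
          have h6 : (2 : ℤ) * 2 ^ j ≤ 2 ^ i := by
            rw [← pow_succ']
            exact pow_le_pow_right₀ (by norm_num) (by omega)
          rw [← max_add_add_left]
          apply max_le_max
          · linarith
          · linarith
    apply hB
    rw [hrec]
    split_ifs with hk
    · apply WB_tr
      have h7 := WB_coeff_rho hWp (-(c + 2 ^ j - 1)).toNat
      refine WB_mono ?_ h7
      rw [Int.toNat_of_nonneg (by omega)]
      linarith
    · exact WB_zero _

end

end Vale.Agent.P263.H718
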